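import Vale.Agent.P207.H992.S0b
import Vale.Agent.P207.H722.S0Low

/-!
# P207, S0: solution of the Gram relations; the splitting of the cone
-/

noncomputable section

namespace Vale.Agent.P207.H992

open Vale.Agent.P207.H662 Vale.Agent.P207.Low
open Vale.Agent.P207.H722.S0 (eta aa b0 b1 ss pk y2 kk)

variable {W : Type*} [AddCommGroup W] [Module ℝ W] {L : Lad W} {lam : ℝ}

/-! ### linear algebra -/

theorem lin_b {n d l A E t v : ℝ} (hn : 3 < n) (hd : 2 < d)
    (h1 : (n + 2) * (A + E) - (n - 2) * (l / n * t) = (l + 2 * (n - 1) + 6 * d) * v)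
    (h2 : 3 * (d + 1) * A = 2 * d * (A + E + l / n * t) + 8 * d * v) (hv : v = t) :
    E = b0 n d l * t := by
  subst hv
  have hn0 : n ≠ 0 := by linarith
  have e1 : (d + 3) * A = 2 * d * (E + l / n * v) + 8 * d * v := by linarith
  have e2 : (d + 3) * ((n + 2) * (A + E) - (n - 2) * (l / n * v)) =
      (d + 3) * ((l + 2 * (n - 1) + 6 * d) * v) := by rw [h1]
  have e3 : (n + 2) * (3 * (d + 1)) * E = (6 * (n - d - 1) * (l / n) - 6 * (d - 1) * (n - d - 1)) * v := by
    have hl : l * v = n * (l / n * v) := by field_simp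
    linear_combination e2 - (n + 2) * e1 + (d + 3) * hl
  unfold b0
  have hd1 : d + 1 ≠ 0 := by linarith
  have hn2 : n + 2 ≠ 0 := by linarith
  field_simp
  field_simp at e3
  linear_combination e3 / 3

theorem lin_u {n d l A E be ze : ℝ} (hn : 3 < n) (hd : 2 < d)
    (h1 : (n + 2) * (A + E) - (n - 2) * ze = (l + 2 * (n - 1) + 6 * d) * be)
    (h2 : 3 * (d + 1) * (1 + n / (n + 4)) * A =
      2 * d * ((1 + n / (n + 4)) * (A + E) + (l + 4 * n) / (n + 4) * be + ze) + 8 * d * be) :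
    E = eta n d l be ze ∧ A = aa n d l be ze := by
  have hn4 : n + 4 ≠ 0 := by linarith
  have hn2 : n + 2 ≠ 0 := by linarith
  have hd1 : d + 1 ≠ 0 := by linarith
  have e1 : (d + 3) * (2 * n + 4) * A = 2 * d * ((2 * n + 4) * E + (l + 4 * n) * be +
      (n + 4) * ze) + 8 * d * (n + 4) * be := by
    field_simp at h2
    linear_combination h2
  have hE : E = eta n d l be ze := by
    unfold eta
    rw [eq_div_iff (mul_ne_zero hd1 hn2)]
    linear_combination (2 * (d + 3) * h1 - e1) / 6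
  refine ⟨hE, ?_⟩
  unfold aa
  rw [← hE]
  field_simp
  linear_combination h1

theorem lin_s {n d l A E be ze w S P K : ℝ} (hn : 3 < n) (hd : 2 < d)
    (hE : E = eta n d l be ze) (hA : A = aa n d l be ze)
    (hS : S = (l + 4 * n) / (n + 4) * w + n / (n + 4) * be)
    (h1 : (n + 6) * (P + K) - (n + 2) *
      (((l + 4 * n) / (n + 4)) ^ 2 * w +
        2 * ((l + 4 * n) / (n + 4)) * (n / (n + 4)) * be +
        (n / (n + 4)) ^ 2 * (A + E)) = (l + 6 * (n + 1) + 6 * d) * S)
    (h2 : 3 * (d + 1) * (P + (1 + n / (n + 4)) * (n / (n + 4)) * A) =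
    2 * d * (P + K + ((l + 4 * n) / (n + 4)) ^ 2 * w +
      (l + 4 * n) / (n + 4) * (1 + 2 * (n / (n + 4))) * be +
      (1 + n / (n + 4)) * (n / (n + 4)) * (A + E)) + 8 * d * S)
    (h3 : 3 * (d + 1) * (1 + n / (n + 4)) * A =
      2 * d * ((1 + n / (n + 4)) * (A + E) + (l + 4 * n) / (n + 4) * be + ze) + 8 * d * be) :
    S = ss n l w be ∧ P + K = pk n d l w be ze ∧ K = kk n d l w be ze := by
  have hn6 : n + 6 ≠ 0 := by linarith
  have hd1 : 3 * (d + 1) ≠ 0 := by
    have : (0 : ℝ) < 3 * (d + 1) := by linarith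
    exact this.ne'
  have hd3 : d + 3 ≠ 0 := by linarith
  have hS' : S = ss n l w be := hS
  have hpk : P + K = pk n d l w be ze := by
    unfold pk
    rw [← hE, ← hA, ← hS', eq_div_iff hn6]
    linear_combination h1
  refine ⟨hS', hpk, ?_⟩
  unfold kk y2
  rw [← hpk, ← hE, ← hA, ← hS', div_mul_eq_mul_div, eq_div_iff hd1]
  generalize (l + 4 * n) / (n + 4) = c0 at *
  generalize n / (n + 4) = g at *
  field_simp
  linear_combination -h2 - h3

/-! ### the Gram data -/

namespace Tree0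

variable {f v a' b' : W} (T : Tree0 L lam f v a' b') (H : S0H L lam)
include T H

theorem o_ab : L.ip a' b' = 0 :=
  T_orth (a := 2 * (2 + L.d - 1)) (b := 0) T.ta.D2 (by rw [T.tb.D2]; simp)
    (by have := H.hd; intro h; linarith)

theorem o_af : L.ip a' f = 0 :=
  T_orth (a := 2 * (2 + L.d - 1)) (b := 0) T.ta.D2 (by rw [T.tf.D2]; simp)
    (by have := H.hd; intro h; linarith)

theorem o_bf : L.ip b' f = 0 :=
  D_orth L T.tb.D T.tf.D (by have := H.dim_pos; intro h; nlinarith)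

/-- `|v|²` -/
theorem vv : L.ip v v = lam / dim L * L.ip f f := by
  have h1 : L.ip (L.X v) f = - L.ip v (L.X f) := L.skew _ _
  rw [T.Xv, T.Xf] at h1
  simp only [map_sub, map_add, map_smul, LinearMap.sub_apply, LinearMap.add_apply,
    LinearMap.smul_apply, smul_eq_mul] at h1
  rw [T.o_af H, T.o_bf H] at h1
  linarith

theorem bb : L.ip b' b' = b0 (dim L) L.d lam * (lam / dim L * L.ip f f) := by
  have hn := H.dim_pos
  have hv : L.D v = (dim L - 1) • v := by rw [T.tv.D]; congr 1; ring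
  have hTv : L.L2.Δ v = L.d • v := by rw [T.tv.D2]; congr 1; ring
  have h1 := H.bil hv hTv hv
  have h2 := H.leaf (f := f) (g := v) (by rw [T.tf.D2]; simp) hTv
  rw [T.TXv, T.Xf] at h2
  rw [T.Xv] at h1 h2
  simp only [map_sub, map_add, map_smul, LinearMap.sub_apply, LinearMap.add_apply,
    LinearMap.smul_apply, smul_eq_mul, T.ta.D, T.tb.D, T.tf.D] at h1 h2
  simp only [T.o_ab H, T.o_af H, T.o_bf H, L.symm b' a', L.symm f a', L.symm f b', T.vv H] at h1 h2
  refine lin_b (A := L.ip a' a') (v := lam / dim L * L.ip f f) hn H.hd ?_ ?_ rfl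
  · have h0 : dim L ≠ 0 := by linarith
    linear_combination -h1
  · linear_combination h2

end Tree0

section Cross

variable {f v a' b' w s u a b c p k : W} (T0 : Tree0 L lam f v a' b')
  (T : Tree2 L lam w s u a b c p k) (H : S0H L lam)
include T0 T H

theorem o_fa : L.ip f a = 0 :=
  D_orth L T0.tf.D T.ta.D (by have := H.dim_pos; intro h; nlinarith)
theorem o_fb : L.ip f b = 0 :=
  D_orth L T0.tf.D T.tb.D (by have := H.dim_pos; intro h; nlinarith)
theorem o_fw : L.ip f w = 0 :=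
  D_orth L T0.tf.D T.tw.D (by have := H.dim_pos; intro h; nlinarith)
theorem o_fp : L.ip f p = 0 :=
  D_orth L T0.tf.D T.tp.D (by have := H.dim_pos; intro h; nlinarith)
theorem o_fk : L.ip f k = 0 :=
  D_orth L T0.tf.D T.tk.D (by have := H.dim_pos; intro h; nlinarith)
theorem o_a'w : L.ip a' w = 0 :=
  T_orth (a := 2 * (2 + L.d - 1)) (b := 0) T0.ta.D2 (by rw [T.tw.D2]; simp)
    (by have := H.hd; intro h; linarith)
theorem o_a'b : L.ip a' b = 0 :=
  T_orth (a := 2 * (2 + L.d - 1)) (b := 0) T0.ta.D2 (by rw [T.tb.D2]; simp)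
    (by have := H.hd; intro h; linarith)
theorem o_a'c : L.ip a' c = 0 :=
  T_orth (a := 2 * (2 + L.d - 1)) (b := 0) T0.ta.D2 (by rw [T.tc.D2]; simp)
    (by have := H.hd; intro h; linarith)
theorem o_ab' : L.ip a b' = 0 :=
  T_orth (a := 2 * (2 + L.d - 1)) (b := 0) T.ta.D2 (by rw [T0.tb.D2]; simp)
    (by have := H.hd; intro h; linarith)
theorem o_b'c : L.ip b' c = 0 :=
  D_orth L T0.tb.D T.tc.D (by have := H.dim_pos; intro h; nlinarith)
theorem o_b'p : L.ip b' p = 0 :=
  D_orth L T0.tb.D T.tp.D (by have := H.dim_pos; intro h; nlinarith)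
theorem o_b'k : L.ip b' k = 0 :=
  D_orth L T0.tb.D T.tk.D (by have := H.dim_pos; intro h; nlinarith)
theorem o_vs : L.ip v s = 0 :=
  D_orth L T0.tv.D T.ts.D (by have := H.dim_pos; intro h; nlinarith)

theorem ip_vu : L.ip v u = L.ip f c := by
  have h1 : L.ip (L.X f) u = - L.ip f (L.X u) := L.skew _ _
  rw [T0.Xf, T.Xu] at h1
  simp only [map_sub, map_add] at h1
  rw [o_fa T0 T H, o_fb T0 T H] at h1
  linarith

theorem ip_b'w : L.ip b' w = L.ip f c := by
  have h1 : L.ip (L.X v) w = - L.ip v (L.X w) := L.skew _ _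
  rw [T0.Xv, T.Xw] at h1
  simp only [map_sub, map_add, map_smul, LinearMap.sub_apply, LinearMap.add_apply,
    LinearMap.smul_apply, smul_eq_mul] at h1
  rw [o_a'w T0 T H, o_fw T0 T H, o_vs T0 T H, ip_vu T0 T H] at h1
  linarith

theorem ip_b'b : L.ip b' b = b0 (dim L) L.d lam * L.ip f c := by
  have hn := H.dim_pos
  have hv : L.D v = (dim L - 1) • v := by rw [T0.tv.D]; congr 1; ring
  have hTv : L.L2.Δ v = L.d • v := by rw [T0.tv.D2]; congr 1; ring
  have hu : L.D u = (dim L - 1) • u := by rw [T.tu.D]; congr 1; ring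
  have hTu : L.L2.Δ u = L.d • u := by rw [T.tu.D2]; congr 1; ring
  have h1 := H.bil hv hTv hu
  have h2 := H.leaf (f := f) (g := u) (by rw [T0.tf.D2]; simp) hTu
  rw [T0.TXv, T0.Xf] at h2
  rw [T0.Xv, T.Xu] at h1 h2
  simp only [map_sub, map_add, map_smul, LinearMap.sub_apply, LinearMap.add_apply,
    LinearMap.smul_apply, smul_eq_mul, T0.ta.D, T0.tb.D, T0.tf.D] at h1 h2
  simp only [o_a'b T0 T H, o_a'c T0 T H, L.symm b' a, o_ab' T0 T H, o_b'c T0 T H, o_fa T0 T H,
    o_fb T0 T H, ip_vu T0 T H] at h1 h2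
  refine lin_b (A := L.ip a' a) (v := L.ip f c) hn H.hd ?_ ?_ rfl
  · linear_combination -h1
  · linear_combination h2

end Cross

namespace Tree2

variable {w s u a b c p k : W} (T : Tree2 L lam w s u a b c p k) (H : S0H L lam)
include T H

theorem bb : L.ip b b = eta (dim L) L.d lam (L.ip u u) (L.ip c c) :=
  (lin_u H.dim_pos H.hd (T.r_u H) (T.l_u H)).1

theorem aa' : L.ip a a = aa (dim L) L.d lam (L.ip u u) (L.ip c c) :=
  (lin_u H.dim_pos H.hd (T.r_u H) (T.l_u H)).2

theorem gram_s : L.ip s s = Vale.Agent.P207.H722.S0.ss (dim L) lam (L.ip w w) (L.ip u u) ∧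
    L.ip p p + L.ip k k = pk (dim L) L.d lam (L.ip w w) (L.ip u u) (L.ip c c) ∧
    L.ip k k = kk (dim L) L.d lam (L.ip w w) (L.ip u u) (L.ip c c) :=
  lin_s H.dim_pos H.hd (T.bb H) (T.aa' H) (T.ss H) (T.r_s H) (T.l_s H) (T.l_u H)

end Tree2

/-! ### the cone -/

theorem b0_sub_b1 {n d l : ℝ} (hn : 3 < n) (hd : 2 < d) (hl : l ≠ 0) :
    n / l * (b0 n d l - b1 n d l) = (n - 2 * d - 2) / ((d + 1) * (n + 2)) := by
  have hn0 : n ≠ 0 := by linarith
  have hd1 : d + 1 ≠ 0 := by linarith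
  have hn2 : n + 2 ≠ 0 := by linarith
  unfold b0 b1
  field_simp
  ring

/-- **the splitting of the cone** -/
theorem split (H : S0H L lam) (hl : 0 < lam) {w s u a b c p k : W}
    (T : Tree2 L lam w s u a b c p k) : ∃ W0 W1 W2 : ℝ, 0 ≤ W0 ∧ 0 ≤ W1 ∧ 0 ≤ W2 ∧
    L.ip w w = W0 + W1 + W2 ∧
    L.ip u u = b1 (dim L) L.d lam * W0 + b0 (dim L) L.d lam * W1 ∧
    L.ip c c = lam / dim L * b0 (dim L) L.d lam * W1 ∧
    (W0 = 0 ∨ 0 < b1 (dim L) L.d lam) ∧ (W1 = 0 ∨ 0 < b0 (dim L) L.d lam) := by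
  have hn := H.dim_pos
  have hd := H.hd
  obtain ⟨v, a', b', T0⟩ := H.exists_tree0 T.tc
  have hb'w := ip_b'w T0 T H
  have hb'b := ip_b'b T0 T H
  have hvu := ip_vu T0 T H
  have hb'b' := T0.bb H
  have hvv := T0.vv H
  have hbw := T.bw H
  have hbb := T.bb H
  set n := dim L
  set d := L.d
  set B0 := b0 n d lam with hB0
  set B1 := b1 n d lam with hB1
  set β := L.ip u u
  set ζ := L.ip c c with hζ
  have hζ0 : 0 ≤ ζ := L.nonneg c
  have hn0 : (0 : ℝ) < n := by linarith
  have hk := b0_sub_b1 hn hd hl.ne'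
  rw [← hB0, ← hB1] at hk
  have hbb' : L.ip b b = B1 * β + n / lam * (B0 - B1) * ζ := by
    rw [hbb, hk]
    unfold eta
    rw [hB1]
    unfold b1
    have hd1 : d + 1 ≠ 0 := by linarith
    have hn2 : n + 2 ≠ 0 := by linarith
    field_simp
  -- the coclosed part of `u`
  set U := β - n / lam * ζ with hU
  have hU0 : 0 ≤ U := by
    have h1 := L.nonneg (u - (n / lam) • v)
    simp only [map_sub, map_smul, LinearMap.sub_apply, LinearMap.smul_apply, smul_eq_mul] at h1
    rw [L.symm u v, hvu, hvv] at h1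
    have e1 : U = β - n / lam * ζ - (n / lam * (ζ - n / lam * (lam / n * ζ))) := by
      rw [hU]; field_simp; ring
    rw [e1]
    exact h1
  have hq : L.ip (b - (n / lam) • b') (b - (n / lam) • b') = B1 * U := by
    simp only [map_sub, map_smul, LinearMap.sub_apply, LinearMap.smul_apply, smul_eq_mul]
    rw [L.symm b b', hb'b, hb'b', hbb', hU]
    field_simp
    ring
  have hqw : L.ip (b - (n / lam) • b') w = U := by
    simp only [map_sub, map_smul, LinearMap.sub_apply, LinearMap.smul_apply, smul_eq_mul]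
    rw [hbw, hb'w]
  have hqb : L.ip (b - (n / lam) • b') b' = 0 := by
    simp only [map_sub, map_smul, LinearMap.sub_apply, LinearMap.smul_apply, smul_eq_mul]
    rw [L.symm b b', hb'b, hb'b']
    field_simp
    ring
  have hB1U : 0 ≤ B1 * U := hq ▸ L.nonneg _
  have hU1 : U = 0 ∨ 0 < B1 := by
    by_cases h : 0 < B1
    · exact Or.inr h
    · left
      push Not at h
      have h2 : B1 * U = 0 := le_antisymm (mul_nonpos_of_nonpos_of_nonneg h hU0) hB1U
      have h3 := cs L (b - (n / lam) • b') w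
      rw [hq, hqw, h2, zero_mul] at h3
      exact pow_eq_zero_iff (two_ne_zero) |>.1 (le_antisymm h3 (sq_nonneg _))
  have hZ1 : ζ = 0 ∨ 0 < B0 := by
    by_cases h : 0 < B0
    · exact Or.inr h
    · left
      push Not at h
      have h1 : 0 ≤ B0 * (lam / n * ζ) := hb'b' ▸ L.nonneg _
      have h4 : 0 ≤ lam / n * ζ := by positivity
      have h2 : B0 * (lam / n * ζ) = 0 :=
        le_antisymm (mul_nonpos_of_nonpos_of_nonneg h h4) h1
      have h3 := cs L b' w
      rw [hb'b', hb'w, h2, zero_mul] at h3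
      exact pow_eq_zero_iff (two_ne_zero) |>.1 (le_antisymm h3 (sq_nonneg _))
  -- the three numbers
  set W0 := if 0 < B1 then U / B1 else 0 with hW0
  set W1 := if 0 < B0 then n / (lam * B0) * ζ else 0 with hW1
  have h0 : 0 ≤ W0 := by
    rw [hW0]; split_ifs with h
    · positivity
    · exact le_rfl
  have h1 : 0 ≤ W1 := by
    rw [hW1]; split_ifs with h
    · positivity
    · exact le_rfl
  have e0 : B1 * W0 = U := by
    rw [hW0]; split_ifs with h
    · field_simp
    · rcases hU1 with h2 | h2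
      · rw [h2, mul_zero]
      · exact absurd h2 h
  have e1 : lam / n * B0 * W1 = ζ := by
    rw [hW1]; split_ifs with h
    · field_simp
    · rcases hZ1 with h2 | h2
      · rw [h2, mul_zero]
      · exact absurd h2 h
  have e2 : B0 * W1 = n / lam * ζ := by
    rw [← e1]; field_simp
  refine ⟨W0, W1, L.ip w w - W0 - W1, h0, h1, ?_, by ring, ?_, e1.symm, ?_, ?_⟩
  · -- the projection of `w` to the kernel of `B*`
    have t1 : ∃ t₁ : ℝ, t₁ * U = W0 ∧ t₁ ^ 2 * (B1 * U) = W0 := by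
      by_cases h : 0 < B1
      · refine ⟨1 / B1, ?_, ?_⟩
        · rw [hW0, if_pos h]; ring
        · rw [hW0, if_pos h]; field_simp
      · refine ⟨0, ?_, ?_⟩ <;> rw [hW0, if_neg h] <;> ring
    have t2 : ∃ t₂ : ℝ, t₂ * ζ = W1 ∧ t₂ ^ 2 * (B0 * (lam / n * ζ)) = W1 := by
      by_cases h : 0 < B0
      · refine ⟨n / (lam * B0), ?_, ?_⟩
        · rw [hW1, if_pos h]
        · rw [hW1, if_pos h]; field_simp
      · refine ⟨0, ?_, ?_⟩ <;> rw [hW1, if_neg h] <;> ring
    obtain ⟨t₁, ht1, ht1'⟩ := t1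
    obtain ⟨t₂, ht2, ht2'⟩ := t2
    have h2 := L.nonneg (w - t₁ • (b - (n / lam) • b') - t₂ • b')
    have e3 : L.ip (w - t₁ • (b - (n / lam) • b') - t₂ • b')
        (w - t₁ • (b - (n / lam) • b') - t₂ • b') = L.ip w w - 2 * (t₁ * U) - 2 * (t₂ * ζ) +
        t₁ ^ 2 * (B1 * U) + t₂ ^ 2 * (B0 * (lam / n * ζ)) := by
      set q := b - (n / lam) • b' with hqdef
      simp only [map_sub, map_smul, LinearMap.sub_apply, LinearMap.smul_apply, smul_eq_mul]
      rw [L.symm w q, hqw, L.symm w b', hb'w, hq, hqb, L.symm b' q, hqb, hb'b']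
      ring
    rw [e3, ht1, ht2, ht1', ht2'] at h2
    linarith
  · rw [e0, e2, hU]; ring
  · rcases hU1 with h2 | h2
    · by_cases h : 0 < B1
      · exact Or.inr h
      · left; rw [hW0, if_neg h]
    · exact Or.inr h2
  · rcases hZ1 with h2 | h2
    · by_cases h : 0 < B0
      · exact Or.inr h
      · left; rw [hW1, if_neg h]
    · exact Or.inr h2

end Vale.Agent.P207.H992
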