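import Vale.Agent.P207.Q.H892.SphHaar

/-!
# P207, block MEAS, part A: averages over the unit balls of two quadratic forms
-/

open scoped Manifold ContDiff ENNReal Topology
open MeasureTheory Set Filter Metric

noncomputable section

set_option linter.unusedSectionVars false

namespace Vale.Agent.P207.H992

open Vale.Agent.P207.Q.H892

/-! ### polar coordinates -/

section Polar

variable {E : Type*} [NormedAddCommGroup E] [NormedSpace ℝ E] [MeasurableSpace E]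
  [Nontrivial E] (μ : Measure E) [FiniteDimensional ℝ E] [BorelSpace E] [μ.IsAddHaarMeasure]

theorem polar_lintegral (F : E → ℝ≥0∞) (hF : Measurable F) :
    ∫⁻ x, F x ∂μ = ∫⁻ θ : sphere (0 : E) 1, ∫⁻ r : Ioi (0 : ℝ), F (r.1 • θ.1)
      ∂(Measure.volumeIoiPow (Module.finrank ℝ E - 1)) ∂μ.toSphere := by
  calc ∫⁻ x, F x ∂μ = ∫⁻ x : ({(0)}ᶜ : Set E), F x.1 ∂(μ.comap (↑)) := by
        rw [lintegral_subtype_comap (measurableSet_singleton _).compl fun x ↦ F x,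
          restrict_compl_singleton]
    _ = ∫⁻ p, F (((homeomorphUnitSphereProd E).symm p : ({(0)}ᶜ : Set E)) : E)
          ∂μ.toSphere.prod (.volumeIoiPow (Module.finrank ℝ E - 1)) := by
        rw [← μ.measurePreserving_homeomorphUnitSphereProd.lintegral_comp_emb
          (Homeomorph.measurableEmbedding _)]
        simp
    _ = _ := by
        rw [lintegral_prod]
        · simp [homeomorphUnitSphereProd_symm_apply_coe]
        · apply Measurable.aemeasurable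
          exact hF.comp (measurable_subtype_coe.comp (Homeomorph.measurable _))

/-- integral over a star body `{‖w‖ < ρ(ŵ)}` of a function of the direction -/
theorem star_lintegral {ρ : E → ℝ} (hρ : Measurable ρ) (hρ0 : ∀ s, ‖s‖ = 1 → 0 < ρ s)
    {F : E → ℝ≥0∞} (hF : Measurable F) :
    ∫⁻ w in {w | ‖w‖ < ρ (‖w‖⁻¹ • w)}, F (‖w‖⁻¹ • w) ∂μ =
      ∫⁻ s : sphere (0 : E) 1, F s * ENNReal.ofReal (ρ s ^ Module.finrank ℝ E /
        Module.finrank ℝ E) ∂μ.toSphere := by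
  have hnpos : 0 < Module.finrank ℝ E := Module.finrank_pos
  have hdir : Measurable (fun w : E => ‖w‖⁻¹ • w) := measurable_id.norm.inv.smul measurable_id
  have hA : MeasurableSet {w : E | ‖w‖ < ρ (‖w‖⁻¹ • w)} :=
    measurableSet_lt measurable_norm (hρ.comp hdir)
  have hFd : Measurable (fun w : E => F (‖w‖⁻¹ • w)) := hF.comp hdir
  rw [← lintegral_indicator hA, polar_lintegral μ _ (hFd.indicator hA)]
  refine lintegral_congr fun s => ?_
  have hs : ‖(s : E)‖ = 1 := by simp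
  have h0 := hρ0 s hs
  have hset : (fun r : Ioi (0 : ℝ) => {w : E | ‖w‖ < ρ (‖w‖⁻¹ • w)}.indicator
      (fun w => F (‖w‖⁻¹ • w)) (r.1 • (s : E))) =
      (Iio (⟨ρ s, h0⟩ : Ioi (0 : ℝ))).indicator (fun _ => F s) := by
    funext r
    have hr : (0 : ℝ) < r.1 := r.2
    have h1 : ‖r.1 • (s : E)‖ = r.1 := by
      rw [norm_smul, hs, mul_one, Real.norm_of_nonneg hr.le]
    have h2 : ‖r.1 • (s : E)‖⁻¹ • (r.1 • (s : E)) = s := by
      rw [h1, smul_smul, inv_mul_cancel₀ hr.ne', one_smul]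
    have h3 : r.1 • (s : E) ∈ {w : E | ‖w‖ < ρ (‖w‖⁻¹ • w)} ↔
        r ∈ Iio (⟨ρ s, h0⟩ : Ioi (0 : ℝ)) := by
      rw [mem_ofPred_eq, h2, h1, mem_Iio, ← Subtype.coe_lt_coe]
    by_cases h4 : r ∈ Iio (⟨ρ s, h0⟩ : Ioi (0 : ℝ))
    · rw [indicator_of_mem h4, indicator_of_mem (h3.2 h4), h2]
    · rw [indicator_of_notMem h4, indicator_of_notMem (fun h => h4 (h3.1 h))]
  rw [hset, lintegral_indicator measurableSet_Iio, setLIntegral_const,
    Measure.volumeIoiPow_apply_Iio]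
  have hcast : ((Module.finrank ℝ E - 1 : ℕ) : ℝ) + 1 = Module.finrank ℝ E := by
    rw [← Nat.cast_add_one, Nat.sub_add_cancel hnpos]
  rw [Nat.sub_add_cancel hnpos, hcast]

/-- comparison of a star body with the ball -/
theorem star_lintegral_ball {ρ : E → ℝ} (hρ : Measurable ρ) (hρ0 : ∀ s, ‖s‖ = 1 → 0 < ρ s)
    {F : E → ℝ≥0∞} (hF : Measurable F) :
    ∫⁻ w in {w | ‖w‖ < ρ (‖w‖⁻¹ • w)}, F (‖w‖⁻¹ • w) ∂μ =
      ∫⁻ w in ball (0 : E) 1, F (‖w‖⁻¹ • w) *
        ENNReal.ofReal (ρ (‖w‖⁻¹ • w) ^ Module.finrank ℝ E) ∂μ := by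
  have hnpos : 0 < Module.finrank ℝ E := Module.finrank_pos
  have hF' : Measurable (fun s : E => F s * ENNReal.ofReal (ρ s ^ Module.finrank ℝ E)) :=
    hF.mul (hρ.pow_const _).ennreal_ofReal
  have h1 := star_lintegral μ (ρ := fun _ => 1) measurable_const (fun _ _ => one_pos) hF'
  have h2 : {w : E | ‖w‖ < 1} = ball (0 : E) 1 := by
    ext w
    rw [mem_ball_zero_iff, mem_ofPred_eq]
  rw [star_lintegral μ hρ hρ0 hF, ← h2]
  refine Eq.trans ?_ h1.symm
  refine lintegral_congr fun s => ?_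
  rw [one_pow, mul_assoc, ← ENNReal.ofReal_mul (pow_nonneg (hρ0 s (by simp)).le _),
    mul_one_div]

/-- comparison of a star body with the ball, real version -/
theorem star_integral_ball {ρ : E → ℝ} (hρ : Measurable ρ) (hρ0 : ∀ s, ‖s‖ = 1 → 0 < ρ s)
    {R : ℝ} (hρR : ∀ s, ‖s‖ = 1 → ρ s ≤ R) {b : E → ℝ} (hb : Measurable b)
    {C : ℝ} (hC : ∀ w, |b w| ≤ C) :
    ∫ w in {w | ‖w‖ < ρ (‖w‖⁻¹ • w)}, b (‖w‖⁻¹ • w) ∂μ =
      ∫ w in ball (0 : E) 1, b (‖w‖⁻¹ • w) * ρ (‖w‖⁻¹ • w) ^ Module.finrank ℝ E ∂μ := by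
  have hdir : Measurable (fun w : E => ‖w‖⁻¹ • w) := measurable_id.norm.inv.smul measurable_id
  have hdir1 : ∀ w : E, w ≠ 0 → ‖‖w‖⁻¹ • w‖ = 1 := by
    intro w hw
    rw [norm_smul, norm_inv, norm_norm, inv_mul_cancel₀ (norm_ne_zero_iff.2 hw)]
  have h0C : 0 ≤ C := (abs_nonneg _).trans (hC 0)
  have hA : MeasurableSet {w : E | ‖w‖ < ρ (‖w‖⁻¹ • w)} :=
    measurableSet_lt measurable_norm (hρ.comp hdir)
  have hR : 0 ≤ R := by
    obtain ⟨v, hv⟩ := exists_ne (0 : E)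
    exact (hρ0 _ (hdir1 v hv)).le.trans (hρR _ (hdir1 v hv))
  have hAfin : μ {w : E | ‖w‖ < ρ (‖w‖⁻¹ • w)} < (⊤ : ℝ≥0∞) := by
    have h1 : {w : E | ‖w‖ < ρ (‖w‖⁻¹ • w)} ⊆ closedBall 0 R ∪ {0} := by
      intro w hw
      by_cases h : w = 0
      · exact Or.inr h
      · left
        rw [mem_closedBall_zero_iff]
        exact (le_of_lt hw).trans (hρR _ (hdir1 w h))
    refine (measure_mono h1).trans_lt ((measure_union_le _ _).trans_lt ?_)
    rw [measure_singleton, add_zero]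
    exact (isCompact_closedBall _ _).measure_lt_top
  -- the nonnegative case
  have key : ∀ (c : E → ℝ), Measurable c → (∀ w, 0 ≤ c w) → (∀ w, c w ≤ 2 * C) →
      ∫ w in {w | ‖w‖ < ρ (‖w‖⁻¹ • w)}, c (‖w‖⁻¹ • w) ∂μ =
      ∫ w in ball (0 : E) 1, c (‖w‖⁻¹ • w) * ρ (‖w‖⁻¹ • w) ^ Module.finrank ℝ E ∂μ := by
    intro c hc hc0 _
    have hnn : ∀ᵐ w ∂μ, 0 ≤ ρ (‖w‖⁻¹ • w) := by
      have h6 : ∀ᵐ w ∂μ, w ≠ 0 := by
        rw [ae_iff]; simp
      filter_upwards [h6] with w hw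
      exact (hρ0 _ (hdir1 w hw)).le
    have hm1 : Measurable (fun w : E => c (‖w‖⁻¹ • w)) := hc.comp hdir
    have hm2 : Measurable (fun w : E => ρ (‖w‖⁻¹ • w)) := hρ.comp hdir
    have hm3 : Measurable (fun w : E => c (‖w‖⁻¹ • w) * ρ (‖w‖⁻¹ • w) ^ Module.finrank ℝ E) :=
      hm1.mul (hm2.pow_const _)
    rw [integral_eq_lintegral_of_nonneg_ae (Eventually.of_forall fun w => hc0 _)
      hm1.aestronglyMeasurable,
      integral_eq_lintegral_of_nonneg_ae ?_ hm3.aestronglyMeasurable]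
    · congr 1
      have h1 := star_lintegral_ball μ hρ hρ0 (F := fun w => ENNReal.ofReal (c w))
        hc.ennreal_ofReal
      refine h1.trans ?_
      refine lintegral_congr_ae (ae_restrict_of_ae (Eventually.of_forall fun w => ?_))
      change _ = ENNReal.ofReal _
      rw [ENNReal.ofReal_mul (hc0 _)]
    · refine ae_restrict_of_ae ?_
      filter_upwards [hnn] with w hw
      exact mul_nonneg (hc0 _) (pow_nonneg hw _)
  have k1 := key (fun w => b w + C) (hb.add_const C) (fun w => by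
    have := abs_le.1 (hC w); linarith) (fun w => by have := abs_le.1 (hC w); linarith)
  have k2 := key (fun _ => C) measurable_const (fun _ => h0C) (fun _ => by linarith)
  have i1 : IntegrableOn (fun w => b (‖w‖⁻¹ • w)) {w : E | ‖w‖ < ρ (‖w‖⁻¹ • w)} μ :=
    Measure.integrableOn_of_bounded (M := C) hAfin.ne (hb.comp hdir).aestronglyMeasurable
      (Eventually.of_forall fun w => hC _)
  have i2 : IntegrableOn (fun _ : E => C) {w : E | ‖w‖ < ρ (‖w‖⁻¹ • w)} μ :=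
    integrableOn_const hAfin.ne
  have hbd : ∀ᵐ w ∂μ, ‖ρ (‖w‖⁻¹ • w) ^ Module.finrank ℝ E‖ ≤ R ^ Module.finrank ℝ E := by
    have h6 : ∀ᵐ w ∂μ, w ≠ 0 := by
      rw [ae_iff]; simp
    filter_upwards [h6] with w hw
    have h1 := hρ0 _ (hdir1 w hw)
    rw [Real.norm_of_nonneg (pow_nonneg h1.le _)]
    exact pow_le_pow_left₀ h1.le (hρR _ (hdir1 w hw)) _
  have i3 : IntegrableOn (fun w => b (‖w‖⁻¹ • w) * ρ (‖w‖⁻¹ • w) ^ Module.finrank ℝ E)
      (ball (0 : E) 1) μ := by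
    refine Measure.integrableOn_of_bounded (M := C * R ^ Module.finrank ℝ E)
      measure_ball_lt_top.ne
      (((hb.comp hdir).mul ((hρ.comp hdir).pow_const _)).aestronglyMeasurable) ?_
    refine ae_restrict_of_ae ?_
    filter_upwards [hbd] with w hw
    rw [norm_mul]
    exact mul_le_mul (hC _) hw (norm_nonneg _) h0C
  have i4 : IntegrableOn (fun w => C * ρ (‖w‖⁻¹ • w) ^ Module.finrank ℝ E)
      (ball (0 : E) 1) μ := by
    refine Measure.integrableOn_of_bounded (M := C * R ^ Module.finrank ℝ E)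
      measure_ball_lt_top.ne
      ((((hρ.comp hdir).pow_const _).const_mul C).aestronglyMeasurable) ?_
    refine ae_restrict_of_ae ?_
    filter_upwards [hbd] with w hw
    rw [norm_mul, Real.norm_of_nonneg h0C]
    exact mul_le_mul_of_nonneg_left hw h0C
  have e1 : ∫ w in {w | ‖w‖ < ρ (‖w‖⁻¹ • w)}, (b (‖w‖⁻¹ • w) + C) ∂μ =
      (∫ w in {w | ‖w‖ < ρ (‖w‖⁻¹ • w)}, b (‖w‖⁻¹ • w) ∂μ) +
      ∫ w in {w | ‖w‖ < ρ (‖w‖⁻¹ • w)}, C ∂μ := integral_add i1 i2
  have e2 : ∫ w in ball (0 : E) 1, (b (‖w‖⁻¹ • w) + C) *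
      ρ (‖w‖⁻¹ • w) ^ Module.finrank ℝ E ∂μ =
      (∫ w in ball (0 : E) 1, b (‖w‖⁻¹ • w) * ρ (‖w‖⁻¹ • w) ^ Module.finrank ℝ E ∂μ) +
      ∫ w in ball (0 : E) 1, C * ρ (‖w‖⁻¹ • w) ^ Module.finrank ℝ E ∂μ := by
    rw [← integral_add i3 i4]
    refine integral_congr_ae (Eventually.of_forall fun w => ?_)
    simp only []
    ring
  rw [e1, e2, k2] at k1
  linarith

end Polar

/-! ### the average over the unit ball of a form -/

section Form

variable {n : ℕ} [NeZero n]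

/-- `B(v,v)^{-1/2}` -/
def gauge (B : EV n →L[ℝ] EV n →L[ℝ] ℝ) (v : EV n) : ℝ := (Real.sqrt (B v v))⁻¹

theorem continuous_Bvv (B : EV n →L[ℝ] EV n →L[ℝ] ℝ) : Continuous (fun v => B v v) :=
  B.continuous.clm_apply continuous_id

theorem measurable_gauge (B : EV n →L[ℝ] EV n →L[ℝ] ℝ) : Measurable (gauge B) :=
  (Real.continuous_sqrt.comp (continuous_Bvv B)).measurable.inv

theorem ball_eq_star {B : EV n →L[ℝ] EV n →L[ℝ] ℝ} (hp : ∀ v, v ≠ 0 → 0 < B v v) {w : EV n}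
    (hw : w ≠ 0) : w ∈ ballB B ↔ ‖w‖ < gauge B (‖w‖⁻¹ • w) := by
  have h1 : 0 < ‖w‖ := norm_pos_iff.2 hw
  have h2 := hp w hw
  have h3 : 0 < Real.sqrt (B w w) := Real.sqrt_pos.2 h2
  have h4 : gauge B (‖w‖⁻¹ • w) = ‖w‖ * (Real.sqrt (B w w))⁻¹ := by
    unfold gauge
    simp only [map_smul, smul_apply, smul_eq_mul]
    rw [← mul_assoc, ← pow_two, Real.sqrt_mul (sq_nonneg _), Real.sqrt_sq (inv_nonneg.2 h1.le),
      mul_inv, inv_inv]
  rw [h4]
  change B w w < 1 ↔ _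
  constructor
  · intro h
    have h5 : Real.sqrt (B w w) < 1 := by
      rw [Real.sqrt_lt' one_pos]; simpa using h
    have h6 : 1 < (Real.sqrt (B w w))⁻¹ := (one_lt_inv₀ h3).2 h5
    nlinarith
  · intro h
    have h6 : 1 < (Real.sqrt (B w w))⁻¹ := by
      by_contra hc
      push Not at hc
      nlinarith
    have h5 := (one_lt_inv₀ h3).1 h6
    have h7 := Real.sq_sqrt h2.le
    nlinarith

theorem exists_LB_of_pos {B : EV n →L[ℝ] EV n →L[ℝ] ℝ} (hp : ∀ v, v ≠ 0 → 0 < B v v) :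
    ∃ c, LB B c := by
  obtain ⟨s0, hs0⟩ : ∃ s : EV n, s ∈ sphere (0 : EV n) 1 :=
    ⟨EuclideanSpace.single 0 1, by simp⟩
  obtain ⟨s, hs, hmin⟩ := (isCompact_sphere (0 : EV n) 1).exists_isMinOn ⟨s0, hs0⟩
    (continuous_Bvv B).continuousOn
  have hs1 : ‖s‖ = 1 := by simpa using hs
  have hsne : s ≠ 0 := by
    rintro rfl
    simp at hs1
  refine ⟨B s s, hp s hsne, fun v => ?_⟩
  by_cases hv : v = 0
  · subst hv
    simp
  · have hv1 : 0 < ‖v‖ := norm_pos_iff.2 hv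
    have h1 : ‖v‖⁻¹ • v ∈ sphere (0 : EV n) 1 := by
      rw [mem_sphere_zero_iff_norm, norm_smul, norm_inv, norm_norm, inv_mul_cancel₀ hv1.ne']
    have h2 : B s s ≤ B (‖v‖⁻¹ • v) (‖v‖⁻¹ • v) := hmin h1
    simp only [map_smul, smul_apply, smul_eq_mul] at h2
    have h3 : ‖v‖ ^ 2 * (‖v‖⁻¹ * (‖v‖⁻¹ * B v v)) = B v v := by
      field_simp
    calc B s s * ‖v‖ ^ 2 = ‖v‖ ^ 2 * B s s := mul_comm _ _
      _ ≤ ‖v‖ ^ 2 * (‖v‖⁻¹ * (‖v‖⁻¹ * B v v)) := mul_le_mul_of_nonneg_left h2 (sq_nonneg _)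
      _ = B v v := h3

/-- the average of a function of the direction over the unit ball of a form, as an average over
the orthogonal group -/
theorem avgB_dir {B : EV n →L[ℝ] EV n →L[ℝ] ℝ} (hs : ∀ v w, B v w = B w v)
    (hp : ∀ v, v ≠ 0 → 0 < B v v) {b : EV n → ℝ} (hb : Measurable b) {C : ℝ}
    (hC : ∀ w, |b w| ≤ C) {u : EV n} (hu : ‖u‖ = 1) :
    avgB B (fun w => b (‖w‖⁻¹ • w)) = Real.sqrt (gramE B).det *
      ∫ A, b (act A u) * gauge B (act A u) ^ n ∂haarP (OG n) := by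
  have h0C : 0 ≤ C := (abs_nonneg _).trans (hC 0)
  obtain ⟨c, hc⟩ : ∃ c, LB B c := exists_LB_of_pos hp
  have hgm := measurable_gauge B
  have hg0 : ∀ s : EV n, ‖s‖ = 1 → 0 < gauge B s := by
    intro s hs1
    have : s ≠ 0 := by
      rintro rfl
      simp at hs1
    exact inv_pos.2 (Real.sqrt_pos.2 (hp s this))
  have hgR : ∀ s : EV n, ‖s‖ = 1 → gauge B s ≤ (Real.sqrt c)⁻¹ := by
    intro s hs1
    unfold gauge
    refine inv_anti₀ (Real.sqrt_pos.2 hc.1) (Real.sqrt_le_sqrt ?_)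
    have := hc.2 s
    rw [hs1] at this
    linarith
  have hfr : Module.finrank ℝ (EV n) = n := by simp
  have hne : ∀ᵐ w : EV n, w ≠ 0 := by
    rw [ae_iff]; simp
  have e1 : ∫ w in ballB B, b (‖w‖⁻¹ • w) =
      ∫ w in {w : EV n | ‖w‖ < gauge B (‖w‖⁻¹ • w)}, b (‖w‖⁻¹ • w) := by
    refine setIntegral_congr_set ?_
    filter_upwards [hne] with w hw
    exact propext (ball_eq_star hp hw)
  have e2 := star_integral_ball (volume : Measure (EV n)) hgm hg0 hgR hb hC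
  rw [hfr] at e2
  -- truncation of the gauge to make it bounded
  set γ : EV n → ℝ := fun s => if ‖s‖ = 1 then gauge B s ^ n else 0 with hγ
  have hγm : Measurable γ :=
    Measurable.ite (measurableSet_eq_fun measurable_norm measurable_const) (hgm.pow_const n)
      measurable_const
  have hγb : ∀ s, |b s * γ s| ≤ C * (Real.sqrt c)⁻¹ ^ n := by
    intro s
    rw [abs_mul]
    by_cases h : ‖s‖ = 1
    · simp only [hγ, if_pos h]
      rw [abs_of_nonneg (pow_nonneg (hg0 s h).le n)]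
      exact mul_le_mul (hC s) (pow_le_pow_left₀ (hg0 s h).le (hgR s h) n)
        (pow_nonneg (hg0 s h).le n) h0C
    · simp only [hγ, if_neg h, abs_zero, mul_zero]
      positivity
  have e3 := ball_avg (hb.mul hγm) hγb hu
  have e4 : ∫ A, (b * γ) (act A u) ∂haarP (OG n) =
      ∫ A, b (act A u) * gauge B (act A u) ^ n ∂haarP (OG n) := by
    refine integral_congr_ae (Eventually.of_forall fun A => ?_)
    change b (act A u) * γ (act A u) = _
    have h1 : ‖act A u‖ = 1 := by rw [norm_act, hu]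
    simp only [hγ, if_pos h1]
  have e5 : ∫ w in ball (0 : EV n) 1, (b * γ) (‖w‖⁻¹ • w) =
      ∫ w in ball (0 : EV n) 1, b (‖w‖⁻¹ • w) * gauge B (‖w‖⁻¹ • w) ^ n := by
    refine integral_congr_ae (ae_restrict_of_ae ?_)
    filter_upwards [hne] with w hw
    change b (‖w‖⁻¹ • w) * γ (‖w‖⁻¹ • w) = _
    have h1 : ‖‖w‖⁻¹ • w‖ = 1 := by
      rw [norm_smul, norm_inv, norm_norm, inv_mul_cancel₀ (norm_ne_zero_iff.2 hw)]
    simp only [hγ, if_pos h1]
  have hvol := volume_real_ballB hs hp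
  have hvb : 0 < volume.real (ball (0 : EV n) 1) :=
    ENNReal.toReal_pos (measure_ball_pos _ _ one_pos).ne' measure_ball_lt_top.ne
  have hdet : 0 < Real.sqrt (gramE B).det := Real.sqrt_pos.2 (gramE_det_pos hs hp)
  unfold avgB
  rw [e1, e2, hvol, ← e5, ← e4, e3]
  field_simp

end Form

end Vale.Agent.P207.H992
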