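import Vale.Agent.P207.H992.MeasA

/-!
# P207, block MEAS, part B: moments of the sphere, symmetric matrices
-/

open scoped Manifold ContDiff ENNReal Topology
open MeasureTheory Set Filter Metric

noncomputable section

set_option linter.unusedSectionVars false

namespace Vale.Agent.P207.H992

open Vale.Agent.P207.Q.H892

variable {n : ℕ} [NeZero n]

/-- the first basis vector -/
abbrev e0 (n : ℕ) [NeZero n] : EV n := EuclideanSpace.single 0 1

/-- the average over the unit sphere -/
def IH (b : EV n → ℝ) : ℝ := ∫ A, b (act A (e0 n)) ∂haarP (OG n)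

theorem integrable_act {b : EV n → ℝ} (hb : Continuous b) :
    Integrable (fun A : OG n => b (act A (e0 n))) (haarP (OG n)) :=
  (hb.comp (continuous_act.comp (continuous_id.prodMk continuous_const))
    ).integrable_of_hasCompactSupport (HasCompactSupport.of_compactSpace _)

theorem IH_act (B : OG n) (b : EV n → ℝ) : IH (fun y => b (act B y)) = IH b := by
  unfold IH
  have h1 := integral_mul_left_eq_self (μ := haarP (OG n)) (fun A => b (act A (e0 n))) B
  rw [← h1]
  refine integral_congr_ae (Eventually.of_forall fun A => ?_)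
  change b (act B (act A (e0 n))) = b (act (B * A) (e0 n))
  rw [act_mul]

theorem IH_add {b c : EV n → ℝ} (hb : Continuous b) (hc : Continuous c) :
    IH (fun y => b y + c y) = IH b + IH c :=
  integral_add (integrable_act hb) (integrable_act hc)

theorem IH_const_mul (r : ℝ) (b : EV n → ℝ) : IH (fun y => r * b y) = r * IH b :=
  integral_const_mul r _

theorem IH_sum {ι : Type*} (s : Finset ι) {b : ι → EV n → ℝ} (hb : ∀ i, Continuous (b i)) :
    IH (fun y => ∑ i ∈ s, b i y) = ∑ i ∈ s, IH (b i) :=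
  integral_finsetSum s fun i _ => integrable_act (hb i)

theorem IH_const (r : ℝ) : IH (n := n) (fun _ => r) = r := by
  simp [IH]

theorem norm_act_e0 (A : OG n) : ‖act A (e0 n)‖ = 1 := by
  rw [norm_act]; simp

theorem sum_sq_act (A : OG n) : ∑ i, (act A (e0 n)) i ^ 2 = 1 := by
  have h := norm_act_e0 A
  have h1 : ‖act A (e0 n)‖ ^ 2 = 1 := by rw [h, one_pow]
  rw [EuclideanSpace.norm_sq_eq] at h1
  simpa [Real.norm_eq_abs, sq_abs] using h1

theorem IH_congr {b c : EV n → ℝ} (h : ∀ y : EV n, ‖y‖ = 1 → b y = c y) : IH b = IH c :=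
  integral_congr_ae (Eventually.of_forall fun A => h _ (norm_act_e0 A))

/-- invariance of the moments of linear forms -/
theorem IH_inner_pow (k : ℕ) {a b : EV n} (h : ‖a‖ = ‖b‖) :
    IH (fun y => inner ℝ a y ^ k) = IH (fun y => inner ℝ b y ^ k) := by
  obtain ⟨B, hB⟩ := exists_act b a h.symm
  rw [← IH_act B (fun y => inner ℝ a y ^ k)]
  congr 1
  funext y
  rw [← hB]
  congr 1
  exact (actL B).inner_map_map b y

theorem inner_single (i : Fin n) (y : EV n) :
    inner ℝ (EuclideanSpace.single i (1 : ℝ)) y = y i := by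
  rw [EuclideanSpace.inner_single_left]; simp

theorem cont_coord (i : Fin n) : Continuous (fun y : EV n => y i) :=
  (continuous_apply i).comp (PiLp.continuous_ofLp 2 _)

theorem cont_sq (i : Fin n) : Continuous (fun y : EV n => y i ^ 2) := (cont_coord i).pow 2

theorem cont_lsq (l : Fin n → ℝ) (i : Fin n) : Continuous (fun y : EV n => l i * y i ^ 2) :=
  continuous_const.mul (cont_sq i)

theorem cont_mix (k l : Fin n) : Continuous (fun y : EV n => y k ^ 2 * y l ^ 2) :=
  (cont_sq k).mul (cont_sq l)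

theorem cont_cmix (c : ℝ) (k l : Fin n) :
    Continuous (fun y : EV n => c * (y k ^ 2 * y l ^ 2)) := continuous_const.mul (cont_mix k l)

/-- second moments -/
theorem IH_sq (i : Fin n) : IH (fun y : EV n => y i ^ 2) = 1 / n := by
  have hn : (n : ℝ) ≠ 0 := Nat.cast_ne_zero.2 (NeZero.ne n)
  have h1 : ∀ i j : Fin n, IH (fun y : EV n => y i ^ 2) = IH (fun y : EV n => y j ^ 2) := by
    intro i j
    have h := IH_inner_pow (n := n) 2 (a := EuclideanSpace.single i (1 : ℝ))
      (b := EuclideanSpace.single j (1 : ℝ)) (by simp)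
    simpa only [inner_single] using h
  have h2 : IH (fun y : EV n => ∑ j, y j ^ 2) = 1 := by
    unfold IH
    simp only [sum_sq_act]
    simp
  rw [IH_sum _ cont_sq] at h2
  simp only [h1 _ i, Finset.sum_const, Finset.card_univ, Fintype.card_fin, nsmul_eq_mul] at h2
  field_simp
  linarith

theorem IH_four_eq (i j : Fin n) : IH (fun y : EV n => y i ^ 4) = IH (fun y : EV n => y j ^ 4) := by
  have h := IH_inner_pow (n := n) 4 (a := EuclideanSpace.single i (1 : ℝ))
    (b := EuclideanSpace.single j (1 : ℝ)) (by simp)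
  simpa only [inner_single] using h

theorem IH_four_mix {i j : Fin n} (hij : i ≠ j) :
    3 * IH (fun y : EV n => y i ^ 2 * y j ^ 2) = IH (fun y : EV n => y i ^ 4) := by
  have hcoord : ∀ (s : ℝ) (y : EV n),
      inner ℝ (EuclideanSpace.single i (1 : ℝ) + s • EuclideanSpace.single j (1 : ℝ)) y =
        y i + s * y j := by
    intro s y
    rw [inner_add_left, real_inner_smul_left, inner_single, inner_single]
  have hn : ∀ s : ℝ, s ^ 2 = 1 →
      ‖(EuclideanSpace.single i (1 : ℝ) + s • EuclideanSpace.single j (1 : ℝ) : EV n)‖ =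
      ‖(Real.sqrt 2 • EuclideanSpace.single i (1 : ℝ) : EV n)‖ := by
    intro s hs
    have h1 : ∀ v w : EV n, ‖v‖ ^ 2 = ‖w‖ ^ 2 → ‖v‖ = ‖w‖ := by
      intro v w h
      have h0 := congrArg Real.sqrt h
      rwa [Real.sqrt_sq (norm_nonneg _), Real.sqrt_sq (norm_nonneg _)] at h0
    apply h1
    rw [← real_inner_self_eq_norm_sq, hcoord, norm_smul, mul_pow, Real.norm_of_nonneg
      (Real.sqrt_nonneg _), Real.sq_sqrt (by norm_num)]
    simp [hij, hij.symm]
    nlinarith
  have h4 : ∀ s : ℝ, s ^ 2 = 1 → IH (fun y : EV n => (y i + s * y j) ^ 4) =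
      4 * IH (fun y : EV n => y i ^ 4) := by
    intro s hs
    have h := IH_inner_pow (n := n) 4 (hn s hs)
    simp only [hcoord, real_inner_smul_left, inner_single, mul_pow] at h
    rw [h]
    have h5 : Real.sqrt 2 ^ 4 = 4 := by
      have : Real.sqrt 2 ^ 4 = (Real.sqrt 2 ^ 2) ^ 2 := by ring
      rw [this, Real.sq_sqrt (by norm_num)]
      norm_num
    rw [h5]
    exact IH_const_mul 4 _
  have hc : ∀ s : ℝ, Continuous (fun y : EV n => (y i + s * y j) ^ 4) := fun s =>
    ((cont_coord i).add (continuous_const.mul (cont_coord j))).pow 4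
  have h5 : IH (fun y : EV n => (y i + 1 * y j) ^ 4 + (y i + (-1) * y j) ^ 4) =
      8 * IH (fun y : EV n => y i ^ 4) := by
    rw [IH_add (hc 1) (hc (-1)), h4 1 (by norm_num), h4 (-1) (by norm_num)]
    ring
  have h6 : (fun y : EV n => (y i + 1 * y j) ^ 4 + (y i + (-1) * y j) ^ 4) =
      fun y : EV n => (2 * y i ^ 4 + 2 * y j ^ 4) + 12 * (y i ^ 2 * y j ^ 2) := by
    funext y
    ring
  have c0 : ∀ k : Fin n, Continuous (fun y : EV n => y k ^ 4) := fun k => (cont_coord k).pow 4
  have c1 : ∀ k : Fin n, Continuous (fun y : EV n => 2 * y k ^ 4) := fun k =>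
    continuous_const.mul (c0 k)
  have c2 : Continuous (fun y : EV n => 2 * y i ^ 4 + 2 * y j ^ 4) := (c1 i).add (c1 j)
  rw [h6, IH_add c2 (cont_cmix 12 i j), IH_add (c1 i) (c1 j),
    IH_const_mul, IH_const_mul, IH_const_mul, IH_four_eq j i] at h5
  linarith

/-- fourth moments -/
theorem IH_four (i j : Fin n) : IH (fun y : EV n => y i ^ 2 * y j ^ 2) =
    (1 + 2 * (if i = j then 1 else 0)) / (n * (n + 2)) := by
  have hn : (n : ℝ) ≠ 0 := Nat.cast_ne_zero.2 (NeZero.ne n)
  have hn0 : (0 : ℝ) < n := by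
    have := Nat.cast_nonneg (α := ℝ) n
    exact lt_of_le_of_ne this hn.symm
  set m := IH (fun y : EV n => y i ^ 4) with hm
  have h1 : ∀ k l : Fin n, IH (fun y : EV n => y k ^ 2 * y l ^ 2) =
      m / 3 * (1 + 2 * (if k = l then 1 else 0)) := by
    intro k l
    by_cases h : k = l
    · subst h
      have e : (fun y : EV n => y k ^ 2 * y k ^ 2) = fun y : EV n => y k ^ 4 := by
        funext y; ring
      rw [e, IH_four_eq k i, if_pos rfl]
      ring
    · have h2 := IH_four_mix h
      rw [IH_four_eq k i] at h2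
      rw [if_neg h]
      linarith
  have h2 : IH (fun y : EV n => ∑ k, ∑ l, y k ^ 2 * y l ^ 2) = 1 := by
    have e : ∀ y : EV n, ∑ k, ∑ l, y k ^ 2 * y l ^ 2 = (∑ k, y k ^ 2) ^ 2 := by
      intro y
      rw [pow_two, Finset.sum_mul_sum]
    simp only [e]
    unfold IH
    simp only [sum_sq_act]
    simp
  have hc : ∀ k l : Fin n, Continuous (fun y : EV n => y k ^ 2 * y l ^ 2) := cont_mix
  have hc' : ∀ k : Fin n, Continuous (fun y : EV n => ∑ l, y k ^ 2 * y l ^ 2) := fun k =>
    continuous_finsetSum _ fun l _ => hc k l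
  rw [IH_sum _ hc'] at h2
  have h3 : ∀ k, IH (fun y : EV n => ∑ l, y k ^ 2 * y l ^ 2) = m / 3 * (n + 2) := by
    intro k
    rw [IH_sum _ (hc k)]
    simp only [h1, ← Finset.mul_sum, Finset.sum_add_distrib, Finset.sum_const, Finset.card_univ,
      Fintype.card_fin, nsmul_eq_mul, mul_one, Finset.sum_ite_eq, Finset.mem_univ, if_true]
  simp only [h3, Finset.sum_const, Finset.card_univ, Fintype.card_fin, nsmul_eq_mul] at h2
  have h4 : m / 3 = 1 / (n * (n + 2)) := by
    have : (n : ℝ) + 2 ≠ 0 := by positivity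
    field_simp
    linarith
  rw [h1 i j, h4]
  ring

/-! ### symmetric matrices -/

/-- the quadratic form of a matrix -/
def qf (K : Matrix (Fin n) (Fin n) ℝ) (y : EV n) : ℝ := ∑ i, ∑ j, K i j * y i * y j

/-- the square of the norm of a matrix -/
def nsq (K : Matrix (Fin n) (Fin n) ℝ) : ℝ := ∑ i, ∑ j, K i j ^ 2

theorem exists_diag {K : Matrix (Fin n) (Fin n) ℝ} (hK : K.IsSymm) :
    ∃ (U : OG n) (l : Fin n → ℝ), K = U.1 * Matrix.diagonal l * U.1.transpose := by
  have hH : K.IsHermitian := by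
    rw [Matrix.IsHermitian, Matrix.conjTranspose_eq_transpose_of_trivial]
    exact hK
  refine ⟨hH.eigenvectorUnitary, hH.eigenvalues, ?_⟩
  have h := hH.spectral_theorem
  conv_lhs => rw [h]
  rfl

theorem diag_trace (U : OG n) (l : Fin n → ℝ) :
    (U.1 * Matrix.diagonal l * U.1.transpose).trace = ∑ i, l i := by
  have hU : U.1.transpose * U.1 = 1 := (Matrix.mem_orthogonalGroup_iff' (Fin n) ℝ).1 U.2
  rw [Matrix.trace_mul_comm, ← Matrix.mul_assoc, hU, Matrix.one_mul, Matrix.trace_diagonal]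

theorem nsq_eq {K : Matrix (Fin n) (Fin n) ℝ} (hK : K.IsSymm) : nsq K = (K * K).trace := by
  unfold nsq
  rw [Matrix.trace]
  refine Finset.sum_congr rfl fun i _ => ?_
  rw [Matrix.diag_apply, Matrix.mul_apply]
  refine Finset.sum_congr rfl fun j _ => ?_
  rw [hK.apply i j, pow_two]

theorem diag_nsq (U : OG n) (l : Fin n → ℝ) :
    nsq (U.1 * Matrix.diagonal l * U.1.transpose) = ∑ i, l i ^ 2 := by
  have hU : U.1.transpose * U.1 = 1 := (Matrix.mem_orthogonalGroup_iff' (Fin n) ℝ).1 U.2
  have hs : (U.1 * Matrix.diagonal l * U.1.transpose).IsSymm := by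
    unfold Matrix.IsSymm
    rw [Matrix.transpose_mul, Matrix.transpose_mul, Matrix.transpose_transpose,
      Matrix.diagonal_transpose, Matrix.mul_assoc]
  rw [nsq_eq hs]
  have h1 : U.1 * Matrix.diagonal l * U.1.transpose * (U.1 * Matrix.diagonal l * U.1.transpose) =
      U.1 * Matrix.diagonal (fun i => l i * l i) * U.1.transpose := by
    rw [← Matrix.diagonal_mul_diagonal]
    calc U.1 * Matrix.diagonal l * U.1.transpose * (U.1 * Matrix.diagonal l * U.1.transpose)
        = U.1 * Matrix.diagonal l * (U.1.transpose * U.1) * Matrix.diagonal l * U.1.transpose := by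
          simp only [Matrix.mul_assoc]
      _ = _ := by rw [hU, Matrix.mul_one]; simp only [Matrix.mul_assoc]
  rw [h1, diag_trace]
  exact Finset.sum_congr rfl fun i _ => (pow_two _).symm

theorem diag_det (U : OG n) (l : Fin n → ℝ) :
    (1 + U.1 * Matrix.diagonal l * U.1.transpose).det = ∏ i, (1 + l i) := by
  have hU : U.1.transpose * U.1 = 1 := (Matrix.mem_orthogonalGroup_iff' (Fin n) ℝ).1 U.2
  have hU' : U.1 * U.1.transpose = 1 := (Matrix.mem_orthogonalGroup_iff (Fin n) ℝ).1 U.2
  have h1 : 1 + U.1 * Matrix.diagonal l * U.1.transpose =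
      U.1 * Matrix.diagonal (fun i => 1 + l i) * U.1.transpose := by
    have h2 : Matrix.diagonal (fun i => 1 + l i) = 1 + Matrix.diagonal l := by
      rw [← Matrix.diagonal_one, Matrix.diagonal_add]
    rw [h2, Matrix.mul_add, Matrix.add_mul, Matrix.mul_one, hU']
  rw [h1, Matrix.det_mul, Matrix.det_mul, Matrix.det_diagonal]
  have h3 : U.1.det * U.1.transpose.det = 1 := by rw [← Matrix.det_mul, hU', Matrix.det_one]
  calc U.1.det * (∏ i, (1 + l i)) * U.1.transpose.det
      = (U.1.det * U.1.transpose.det) * ∏ i, (1 + l i) := by ring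
    _ = _ := by rw [h3, one_mul]

theorem qf_eq (K : Matrix (Fin n) (Fin n) ℝ) (y : EV n) :
    qf K y = y.ofLp ⬝ᵥ K.mulVec y.ofLp := by
  unfold qf
  simp only [dotProduct, Matrix.mulVec, Finset.mul_sum]
  exact Finset.sum_congr rfl fun i _ => Finset.sum_congr rfl fun j _ => by ring

theorem diag_qf (U : OG n) (l : Fin n → ℝ) (y : EV n) :
    qf (U.1 * Matrix.diagonal l * U.1.transpose) (act U y) = ∑ i, l i * y i ^ 2 := by
  have hU : U.1.transpose * U.1 = 1 := (Matrix.mem_orthogonalGroup_iff' (Fin n) ℝ).1 U.2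
  rw [qf_eq]
  change U.1.mulVec y.ofLp ⬝ᵥ (U.1 * Matrix.diagonal l * U.1.transpose).mulVec
    (U.1.mulVec y.ofLp) = _
  rw [Matrix.mulVec_mulVec, Matrix.mul_assoc, hU, Matrix.mul_one, ← Matrix.mulVec_mulVec,
    Matrix.dotProduct_mulVec, Matrix.vecMul_mulVec, hU, Matrix.vecMul_one]
  simp only [Matrix.mulVec_diagonal, dotProduct]
  exact Finset.sum_congr rfl fun i _ => by ring

theorem IH_qf {K : Matrix (Fin n) (Fin n) ℝ} (hK : K.IsSymm) : IH (qf K) = K.trace / n := by
  obtain ⟨U, l, rfl⟩ := exists_diag hK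
  rw [← IH_act U, diag_trace]
  simp only [diag_qf]
  rw [IH_sum _ (cont_lsq l)]
  simp only [IH_const_mul, IH_sq]
  rw [← Finset.sum_mul]
  ring

theorem IH_qf_sq {K : Matrix (Fin n) (Fin n) ℝ} (hK : K.IsSymm) :
    IH (fun y => qf K y ^ 2) = (K.trace ^ 2 + 2 * nsq K) / (n * (n + 2)) := by
  obtain ⟨U, l, rfl⟩ := exists_diag hK
  rw [← IH_act U, diag_trace, diag_nsq]
  simp only [diag_qf]
  have e : ∀ y : EV n, (∑ i, l i * y i ^ 2) ^ 2 = ∑ i, ∑ j, (l i * l j) * (y i ^ 2 * y j ^ 2) := by
    intro y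
    rw [pow_two, Finset.sum_mul_sum]
    exact Finset.sum_congr rfl fun i _ => Finset.sum_congr rfl fun j _ => by ring
  simp only [e]
  have hc' : ∀ i : Fin n, Continuous (fun y : EV n => ∑ j, (l i * l j) * (y i ^ 2 * y j ^ 2)) :=
    fun i => continuous_finsetSum _ fun j _ => cont_cmix _ i j
  rw [IH_sum _ hc']
  have h3 : ∀ i, IH (fun y : EV n => ∑ j, (l i * l j) * (y i ^ 2 * y j ^ 2)) =
      (l i * ∑ j, l j + 2 * l i ^ 2) / (n * (n + 2)) := by
    intro i
    rw [IH_sum _ fun j => cont_cmix _ i j]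
    simp only [IH_const_mul, IH_four]
    have : ∀ j, l i * l j * ((1 + 2 * (if i = j then (1 : ℝ) else 0)) / (n * (n + 2))) =
        (l i * l j + 2 * (if i = j then l i * l j else 0)) / (n * (n + 2)) := by
      intro j
      split_ifs <;> ring
    simp only [this]
    rw [← Finset.sum_div, Finset.sum_add_distrib, ← Finset.mul_sum, ← Finset.mul_sum,
      Finset.sum_ite_eq]
    simp only [Finset.mem_univ, if_true]
    ring
  simp only [h3]
  rw [← Finset.sum_div, Finset.sum_add_distrib, ← Finset.sum_mul, ← Finset.mul_sum]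
  ring

end Vale.Agent.P207.H992
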