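import Vale.Agent.P207.H992.MeasB

/-!
# P207, block MEAS, part C: second order expansions
-/

open scoped Topology
open Set Filter Asymptotics

noncomputable section

set_option linter.unusedSectionVars false

namespace Vale.Agent.P207.H992

variable {X : Type*} {l : Filter X} {s a a₁ a₂ b b₁ b₂ : X → ℝ}

/-- `a = 1 + a₁ + a₂` up to an error `O(s³)`, where `aᵢ = O(sⁱ)` -/
structure E2 (l : Filter X) (s a a₁ a₂ : X → ℝ) : Prop where
  b1 : a₁ =O[l] s
  b2 : a₂ =O[l] fun x => s x ^ 2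
  rem : (fun x => a x - (1 + a₁ x + a₂ x)) =O[l] fun x => s x ^ 3

theorem isBigO_of_bdd {u : X → ℝ} (hs : s =O[l] (fun _ => (1 : ℝ))) {k m : ℕ} (hkm : k ≤ m)
    (h : u =O[l] fun x => s x ^ m) : u =O[l] fun x => s x ^ k := by
  have h1 : (fun x => s x ^ m) =O[l] fun x => s x ^ k := by
    obtain ⟨j, rfl⟩ := Nat.exists_eq_add_of_le hkm
    have h2 := (isBigO_refl (fun x => s x ^ k) l).mul (hs.pow j)
    simpa only [pow_add, one_pow, mul_one] using h2
  exact h.trans h1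

theorem E2.exact (h1 : a₁ =O[l] s) (h2 : a₂ =O[l] fun x => s x ^ 2) :
    E2 l s (fun x => 1 + a₁ x + a₂ x) a₁ a₂ :=
  ⟨h1, h2, by simpa using isBigO_zero _ _⟩

theorem E2.congr' {a' a₁' a₂' : X → ℝ} (h : E2 l s a a₁ a₂) (h0 : ∀ x, a x = a' x)
    (h1 : ∀ x, a₁ x = a₁' x) (h2 : ∀ x, a₂ x = a₂' x) : E2 l s a' a₁' a₂' := by
  obtain rfl : a = a' := funext h0
  obtain rfl : a₁ = a₁' := funext h1
  obtain rfl : a₂ = a₂' := funext h2
  exact h

theorem E2.bdd (h : E2 l s a a₁ a₂) (hs : s =O[l] (fun _ => (1 : ℝ))) :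
    a =O[l] (fun _ => (1 : ℝ)) := by
  have h1 : a₁ =O[l] (fun _ => (1 : ℝ)) := h.b1.trans hs
  have h2 : a₂ =O[l] (fun _ => (1 : ℝ)) := by
    have := isBigO_of_bdd hs (Nat.zero_le 2) h.b2
    simpa using this
  have h3 : (fun x => a x - (1 + a₁ x + a₂ x)) =O[l] (fun _ => (1 : ℝ)) := by
    have := isBigO_of_bdd hs (Nat.zero_le 3) h.rem
    simpa using this
  have h4 : (fun x => 1 + a₁ x + a₂ x) =O[l] (fun _ => (1 : ℝ)) :=
    ((isBigO_refl _ _).add h1).add h2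
  have h5 := h3.add h4
  refine h5.congr_left fun x => ?_
  ring

theorem E2.mul (ha : E2 l s a a₁ a₂) (hb : E2 l s b b₁ b₂) (hs : s =O[l] (fun _ => (1 : ℝ))) :
    E2 l s (fun x => a x * b x) (fun x => a₁ x + b₁ x) (fun x => a₂ x + b₂ x + a₁ x * b₁ x) := by
  have p11 : (fun x => a₁ x * b₁ x) =O[l] fun x => s x ^ 2 := by
    refine (ha.b1.mul hb.b1).congr_right fun x => ?_
    ring
  refine ⟨ha.b1.add hb.b1, (ha.b2.add hb.b2).add p11, ?_⟩
  have q1 : (fun x => a₁ x * b₂ x) =O[l] fun x => s x ^ 3 :=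
    (ha.b1.mul hb.b2).congr_right fun x => by ring
  have q2 : (fun x => a₂ x * b₁ x) =O[l] fun x => s x ^ 3 :=
    (ha.b2.mul hb.b1).congr_right fun x => by ring
  have q3 : (fun x => a₂ x * b₂ x) =O[l] fun x => s x ^ 3 := by
    have h : (fun x => a₂ x * b₂ x) =O[l] fun x => s x ^ 4 :=
      (ha.b2.mul hb.b2).congr_right fun x => by ring
    exact isBigO_of_bdd hs (by norm_num) h
  have q4 : (fun x => (a x - (1 + a₁ x + a₂ x)) * b x) =O[l] fun x => s x ^ 3 :=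
    (ha.rem.mul (hb.bdd hs)).congr_right fun x => by ring
  have h1 : (fun x => 1 + a₁ x + a₂ x) =O[l] (fun _ => (1 : ℝ)) :=
    (E2.exact ha.b1 ha.b2).bdd hs
  have q5 : (fun x => (1 + a₁ x + a₂ x) * (b x - (1 + b₁ x + b₂ x))) =O[l] fun x => s x ^ 3 :=
    (h1.mul hb.rem).congr_right fun x => by ring
  refine ((((q1.add q2).add q3).add q4).add q5).congr_left fun x => ?_
  ring

theorem E2.one : E2 l s (fun _ => 1) (fun _ => 0) (fun _ => 0) :=
  ⟨isBigO_zero _ _, isBigO_zero _ _, by simpa using isBigO_zero _ _⟩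

theorem E2.prod {ι : Type*} (F : Finset ι) {c : ι → X → ℝ} (hc : ∀ i, c i =O[l] s)
    (hs : s =O[l] (fun _ => (1 : ℝ))) :
    E2 l s (fun x => ∏ i ∈ F, (1 + c i x)) (fun x => ∑ i ∈ F, c i x)
      (fun x => ((∑ i ∈ F, c i x) ^ 2 - ∑ i ∈ F, c i x ^ 2) / 2) := by
  classical
  induction F using Finset.induction_on with
  | empty => simpa using E2.one
  | insert j F hj ih =>
    have h1 : E2 l s (fun x => 1 + c j x) (c j) (fun _ => 0) :=
      (E2.exact (hc j) (isBigO_zero _ _)).congr' (fun x => by simp) (fun _ => rfl) (fun _ => rfl)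
    refine (h1.mul ih hs).congr' (fun x => ?_) (fun x => ?_) (fun x => ?_)
    · rw [Finset.prod_insert hj]
    · rw [Finset.sum_insert hj]
    · rw [Finset.sum_insert hj, Finset.sum_insert hj]
      ring

theorem E2.pow (ha : E2 l s a a₁ a₂) (hs : s =O[l] (fun _ => (1 : ℝ))) (m : ℕ) :
    E2 l s (fun x => a x ^ m) (fun x => m * a₁ x)
      (fun x => m * a₂ x + m * (m - 1) / 2 * a₁ x ^ 2) := by
  induction m with
  | zero => simpa using E2.one
  | succ m ih =>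
    refine (ih.mul ha hs).congr' (fun x => (pow_succ _ _).symm) (fun x => ?_) (fun x => ?_)
    · push_cast; ring
    · push_cast; ring

theorem E2.tendsto (ha : E2 l s a a₁ a₂) (hs : Tendsto s l (𝓝 0)) : Tendsto a l (𝓝 1) := by
  have hs1 : s =O[l] (fun _ => (1 : ℝ)) := hs.isBigO_one ℝ
  have z1 : Tendsto a₁ l (𝓝 0) := ha.b1.trans_tendsto hs
  have z2 : Tendsto a₂ l (𝓝 0) := ha.b2.trans_tendsto (by simpa using hs.pow 2)
  have z3 : Tendsto (fun x => a x - (1 + a₁ x + a₂ x)) l (𝓝 0) :=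
    ha.rem.trans_tendsto (by simpa using hs.pow 3)
  have z4 := z3.add ((tendsto_const_nhds (x := (1 : ℝ))).add z1 |>.add z2)
  simp only [add_zero, zero_add] at z4
  refine z4.congr fun x => ?_
  ring

theorem E2.sqrt (ha : E2 l s a a₁ a₂) (hs : Tendsto s l (𝓝 0)) :
    E2 l s (fun x => Real.sqrt (a x)) (fun x => a₁ x / 2) (fun x => a₂ x / 2 - a₁ x ^ 2 / 8) := by
  have hs1 : s =O[l] (fun _ => (1 : ℝ)) := hs.isBigO_one ℝ
  have b1 : (fun x => a₁ x / 2) =O[l] s := by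
    refine (ha.b1.const_mul_left (1 / 2)).congr_left fun x => ?_
    ring
  have b2 : (fun x => a₂ x / 2 - a₁ x ^ 2 / 8) =O[l] fun x => s x ^ 2 := by
    have h1 := (ha.b2.const_mul_left (1 / 2)).add ((ha.b1.pow 2).const_mul_left (-1 / 8))
    refine h1.congr_left fun x => ?_
    ring
  refine ⟨b1, b2, ?_⟩
  have ht := E2.exact b1 b2
  have htt := ht.mul ht hs1
  set t : X → ℝ := fun x => 1 + a₁ x / 2 + (a₂ x / 2 - a₁ x ^ 2 / 8) with htdef
  have h1 : (fun x => a x - t x * t x) =O[l] fun x => s x ^ 3 := by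
    refine (ha.rem.sub htt.rem).congr_left fun x => ?_
    ring
  have h2 : Tendsto t l (𝓝 1) := ht.tendsto hs
  have h3 : Tendsto a l (𝓝 1) := ha.tendsto hs
  refine IsBigO.trans ?_ h1
  refine IsBigO.of_bound 2 ?_
  filter_upwards [h2.eventually (lt_mem_nhds (show (1 / 2 : ℝ) < 1 by norm_num)),
    h3.eventually (lt_mem_nhds (show (0 : ℝ) < 1 by norm_num))] with x hx1 hx2
  have e : a x - t x * t x = (Real.sqrt (a x) - t x) * (Real.sqrt (a x) + t x) := by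
    have := Real.mul_self_sqrt hx2.le
    nlinarith
  rw [e, norm_mul, Real.norm_eq_abs, Real.norm_eq_abs]
  have h4 : (1 / 2 : ℝ) ≤ |Real.sqrt (a x) + t x| := by
    rw [abs_of_nonneg (by have := Real.sqrt_nonneg (a x); linarith)]
    have := Real.sqrt_nonneg (a x)
    linarith
  nlinarith [abs_nonneg (Real.sqrt (a x) - t x)]

theorem E2.inv (ha : E2 l s a a₁ a₂) (hs : Tendsto s l (𝓝 0)) :
    E2 l s (fun x => (a x)⁻¹) (fun x => -a₁ x) (fun x => a₁ x ^ 2 - a₂ x) := by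
  have hs1 : s =O[l] (fun _ => (1 : ℝ)) := hs.isBigO_one ℝ
  have b1 : (fun x => -a₁ x) =O[l] s := ha.b1.neg_left
  have b2 : (fun x => a₁ x ^ 2 - a₂ x) =O[l] fun x => s x ^ 2 := (ha.b1.pow 2).sub ha.b2
  refine ⟨b1, b2, ?_⟩
  have ht := E2.exact b1 b2
  have htt := ha.mul ht hs1
  set t : X → ℝ := fun x => 1 + -a₁ x + (a₁ x ^ 2 - a₂ x) with htdef
  have h1 : (fun x => a x * t x - 1) =O[l] fun x => s x ^ 3 := by
    refine htt.rem.congr_left fun x => ?_
    ring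
  have h3 : Tendsto a l (𝓝 1) := ha.tendsto hs
  refine IsBigO.trans ?_ h1
  refine IsBigO.of_bound 2 ?_
  filter_upwards [h3.eventually (lt_mem_nhds (show (1 / 2 : ℝ) < 1 by norm_num))] with x hx1
  have hx0 : 0 < a x := by linarith
  have e : (a x)⁻¹ - t x = -(a x)⁻¹ * (a x * t x - 1) := by
    field_simp
    ring
  change ‖(a x)⁻¹ - t x‖ ≤ _
  rw [e, norm_mul, norm_neg, norm_inv, Real.norm_of_nonneg hx0.le]
  refine mul_le_mul_of_nonneg_right ?_ (norm_nonneg _)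
  rw [inv_le_comm₀ hx0 (by norm_num)]
  linarith

/-! ### determinants -/

/-- the filter of the pairs `(x, κ)` with `κ → 0` and `P x κ` -/
def uF {Y : Type*} (P : Y → ℝ → Prop) : Filter (Y × ℝ) :=
  (comap Prod.snd (𝓝[≥] (0 : ℝ))) ⊓ 𝓟 {x : Y × ℝ | P x.1 x.2}

theorem tendsto_uF {Y : Type*} (P : Y → ℝ → Prop) :
    Tendsto (fun x : Y × ℝ => x.2) (uF P) (𝓝 0) :=
  (tendsto_comap.mono_left inf_le_left).mono_right nhdsWithin_le_nhds

theorem bound_of_uF {Y : Type*} {P : Y → ℝ → Prop} {f : Y → ℝ} {k : ℕ}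
    (h : (fun x : Y × ℝ => f x.1) =O[uF P] fun x => x.2 ^ k) :
    ∃ C ε : ℝ, 0 ≤ C ∧ 0 < ε ∧ ∀ y κ, 0 ≤ κ → κ ≤ ε → P y κ → |f y| ≤ C * κ ^ k := by
  obtain ⟨C, hC⟩ := h.bound
  rw [uF, eventually_inf_principal, eventually_comap, eventually_nhdsWithin_iff,
    Metric.eventually_nhds_iff] at hC
  obtain ⟨ε, hε, hC⟩ := hC
  refine ⟨max C 0, ε / 2, le_max_right _ _, by linarith, fun y κ hκ0 hκ hP => ?_⟩
  have h1 := hC (y := κ) (by rw [Real.dist_eq, sub_zero, abs_of_nonneg hκ0]; linarith) hκ0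
    (y, κ) rfl hP
  rw [Real.norm_eq_abs, Real.norm_eq_abs, abs_of_nonneg (pow_nonneg hκ0 k)] at h1
  exact h1.trans (mul_le_mul_of_nonneg_right (le_max_left _ _) (pow_nonneg hκ0 k))

theorem uF_of_bound {Y : Type*} {P : Y → ℝ → Prop} {f : Y → ℝ} {k : ℕ} {C ε : ℝ} (hε : 0 < ε)
    (h : ∀ y κ, 0 ≤ κ → κ ≤ ε → P y κ → |f y| ≤ C * κ ^ k) :
    (fun x : Y × ℝ => f x.1) =O[uF P] fun x => x.2 ^ k := by
  refine IsBigO.of_bound C ?_
  rw [uF, eventually_inf_principal, eventually_comap, eventually_nhdsWithin_iff,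
    Metric.eventually_nhds_iff]
  refine ⟨ε, hε, ?_⟩
  rintro κ hκ hκ0 ⟨y, κ'⟩ rfl hP
  rw [Real.dist_eq, sub_zero, abs_of_nonneg hκ0] at hκ
  have h1 : ‖κ' ^ k‖ = κ' ^ k := Real.norm_of_nonneg (pow_nonneg hκ0 k)
  change ‖f y‖ ≤ C * ‖κ' ^ k‖
  rw [h1, Real.norm_eq_abs]
  exact h y κ' hκ0 hκ.le hP

/-- the expansion of a product of numbers close to `1` -/
theorem exists_prod_expansion (n : ℕ) : ∃ C ε : ℝ, 0 ≤ C ∧ 0 < ε ∧
    ∀ (c : Fin n → ℝ) (κ : ℝ), 0 ≤ κ → κ ≤ ε → (∀ i, |c i| ≤ κ) →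
    |∏ i, (1 + c i) - (1 + ∑ i, c i + ((∑ i, c i) ^ 2 - ∑ i, c i ^ 2) / 2)| ≤ C * κ ^ 3 := by
  have hc : ∀ i, (fun x : (Fin n → ℝ) × ℝ => x.1 i) =O[uF fun c κ => ∀ i, |c i| ≤ κ]
      fun x => x.2 := by
    intro i
    have h := uF_of_bound (P := fun (c : Fin n → ℝ) κ => ∀ i, |c i| ≤ κ) (f := fun c => c i)
      (k := 1) (C := 1) one_pos (fun c κ _ _ h => by rw [pow_one, one_mul]; exact h i)
    simpa using h
  exact bound_of_uF (E2.prod (Finset.univ : Finset (Fin n)) hc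
    ((tendsto_uF _).isBigO_one ℝ)).rem

section Mat

variable {n : ℕ} [NeZero n]

/-- small symmetric matrices -/
def SmallSym (K : Matrix (Fin n) (Fin n) ℝ) (κ : ℝ) : Prop :=
  K.IsSymm ∧ ∀ i j, |K i j| ≤ κ

/-- the first order part of the determinant -/
theorem entry_isBigO (i j : Fin n) :
    (fun x : Matrix (Fin n) (Fin n) ℝ × ℝ => x.1 i j) =O[uF SmallSym] fun x => x.2 := by
  have h := uF_of_bound (P := SmallSym (n := n)) (f := fun K => K i j)
    (k := 1) (C := 1) one_pos (fun c κ _ _ h => by rw [pow_one, one_mul]; exact h.2 i j)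
  simpa using h

theorem trace_isBigO :
    (fun x : Matrix (Fin n) (Fin n) ℝ × ℝ => x.1.trace) =O[uF SmallSym] fun x => x.2 :=
  (IsBigO.sum fun i (_ : i ∈ Finset.univ) => entry_isBigO i i).congr_left fun x => by
    simp [Matrix.trace]

theorem nsq_isBigO :
    (fun x : Matrix (Fin n) (Fin n) ℝ × ℝ => nsq x.1) =O[uF SmallSym] fun x => x.2 ^ 2 :=
  (IsBigO.sum fun i (_ : i ∈ Finset.univ) => IsBigO.sum fun j (_ : j ∈ Finset.univ) =>
    (entry_isBigO i j).pow 2).congr_left fun x => by simp [nsq]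

theorem nsq_le {K : Matrix (Fin n) (Fin n) ℝ} {κ : ℝ} (h : ∀ i j, |K i j| ≤ κ) :
    nsq K ≤ (n * κ) ^ 2 := by
  unfold nsq
  have h1 : ∀ i j, K i j ^ 2 ≤ κ ^ 2 := fun i j => by
    rw [← sq_abs]
    exact pow_le_pow_left₀ (abs_nonneg _) (h i j) 2
  calc ∑ i, ∑ j, K i j ^ 2 ≤ ∑ _i : Fin n, ∑ _j : Fin n, κ ^ 2 :=
        Finset.sum_le_sum fun i _ => Finset.sum_le_sum fun j _ => h1 i j
    _ = (n * κ) ^ 2 := by
        simp only [Finset.sum_const, Finset.card_univ, Fintype.card_fin, nsmul_eq_mul]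
        ring

/-- the expansion of the determinant -/
theorem E2_det : E2 (uF (SmallSym (n := n))) (fun x => x.2) (fun x => (1 + x.1).det)
    (fun x => x.1.trace) (fun x => (x.1.trace ^ 2 - nsq x.1) / 2) := by
  refine ⟨trace_isBigO, ?_, ?_⟩
  · have h := ((trace_isBigO (n := n)).pow 2).sub nsq_isBigO
    refine (h.const_mul_left (1 / 2)).congr_left fun x => ?_
    ring
  · obtain ⟨C, ε, hC, hε, h⟩ := exists_prod_expansion n
    have hn : (0 : ℝ) < n := Nat.cast_pos.2 (NeZero.pos n)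
    refine uF_of_bound (P := SmallSym (n := n)) (f := fun K => (1 + K).det -
      (1 + K.trace + (K.trace ^ 2 - nsq K) / 2)) (k := 3) (C := C * n ^ 3) (ε := ε / n)
      (by positivity) ?_
    rintro K κ hκ0 hκ ⟨hK, hKκ⟩
    have h1 := nsq_le hKκ
    obtain ⟨U, c, rfl⟩ := exists_diag hK
    rw [diag_nsq] at h1
    rw [diag_trace, diag_nsq, diag_det]
    have h2 : ∀ i, |c i| ≤ n * κ := by
      intro i
      have h3 : c i ^ 2 ≤ (n * κ) ^ 2 :=
        (Finset.single_le_sum (f := fun i => c i ^ 2) (fun _ _ => sq_nonneg _)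
          (Finset.mem_univ i)).trans h1
      exact abs_le_of_sq_le_sq h3 (by positivity)
    have h4 := h c (n * κ) (by positivity) (by
      rw [le_div_iff₀ hn] at hκ; linarith) h2
    calc _ ≤ C * (n * κ) ^ 3 := h4
      _ = _ := by ring

/-- the expansion of the density of the volume -/
theorem E2_sqrt_det : E2 (uF (SmallSym (n := n))) (fun x => x.2)
    (fun x => Real.sqrt (1 + x.1).det) (fun x => x.1.trace / 2)
    (fun x => x.1.trace ^ 2 / 8 - nsq x.1 / 4) :=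
  (E2_det.sqrt (tendsto_uF _)).congr' (fun _ => rfl) (fun _ => rfl) (fun x => by ring)

/-- the expansion of the density of the Liouville measure -/
theorem E2_liou : E2 (uF (SmallSym (n := n))) (fun x => x.2)
    (fun x => (1 + x.1).det * (Real.sqrt (1 + x.1 0 0))⁻¹ ^ n)
    (fun x => x.1.trace - n / 2 * x.1 0 0)
    (fun x => (x.1.trace ^ 2 - nsq x.1) / 2 + n * (n + 2) / 8 * x.1 0 0 ^ 2 -
      n / 2 * x.1 0 0 * x.1.trace) := by
  have h1 : E2 (uF (SmallSym (n := n))) (fun x => x.2) (fun x => 1 + x.1 0 0)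
      (fun x => x.1 0 0) (fun _ => 0) :=
    (E2.exact (entry_isBigO 0 0) (isBigO_zero _ _)).congr' (fun x => by simp) (fun _ => rfl)
      (fun _ => rfl)
  have h2 := ((h1.sqrt (tendsto_uF _)).inv (tendsto_uF _)).pow ((tendsto_uF _).isBigO_one ℝ) n
  refine (E2_det.mul h2 ((tendsto_uF _).isBigO_one ℝ)).congr' (fun _ => rfl) (fun x => ?_)
    (fun x => ?_)
  · ring
  · ring

end Mat

end Vale.Agent.P207.H992
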