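import Vale.Agent.P207.H992.S0e
import Vale.Agent.P207.H143.S0Low
import Vale.Agent.P207.H722.S0Cay

/-!
# P207, S0: the quadratic form is positive on the functions of type `(0,0) + (2,0)`

`s0_H` : quaternionic hyperbolic space of dimension `4 m`, `m ≥ 2`;
`s0_C` : the Cayley hyperbolic plane.
-/

noncomputable section

universe u

namespace Vale.Agent.P207.H992

open Vale.Agent.P207.H662 Vale.Agent.P207.Low Vale.Agent.P207.H391
open Vale.Agent.P207.H722.S0 (b0 b1)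

variable {W : Type u} [AddCommGroup W] [Module ℝ W] {L : Lad W} {lam : ℝ}

theorem pos_of_ne (defi : ∀ f, L.ip f f = 0 → f = 0) {f : W} (hf : f ≠ 0) : 0 < L.ip f f :=
  lt_of_le_of_ne (L.nonneg f) fun h => hf (defi f h.symm)

/-- the constant part -/
theorem s0_const (defi : ∀ f, L.ip f f = 0 → f = 0) (hn : 1 < dim L) {φ w : W}
    (tφ : Typ L 0 0 φ) (hw : w = 0) (hne : φ + w ≠ 0) (M : Submodule ℝ W) :
    ∃ F₁ ∈ M, ∃ G₁ ∈ M, ∃ F₂ ∈ M, ∃ G₂ ∈ M, 0 < PP L (φ + w) F₁ G₁ F₂ G₂ := by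
  subst hw
  rw [add_zero] at hne ⊢
  refine ⟨0, M.zero_mem, 0, M.zero_mem, 0, M.zero_mem, 0, M.zero_mem, ?_⟩
  rw [PP_zero_fields tφ]
  exact mul_pos (by linarith) (pos_of_ne defi hne)

/-- the first order fields -/
theorem s0_first (H : S0H L lam) {φ w s u a b c p k : W} (tφ : Typ L 0 0 φ)
    (T : Tree2 L lam w s u a b c p k) {M : Submodule ℝ W} (hM : Stable L M) (mw : w ∈ M)
    (h : 0 < H722.S0.High (dim L) L.d lam (L.ip φ φ) (L.ip w w) (L.ip u u) (L.ip c c)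
      (L.ip φ c)) :
    ∃ F₁ ∈ M, ∃ G₁ ∈ M, ∃ F₂ ∈ M, ∃ G₂ ∈ M, 0 < PP L (φ + w) F₁ G₁ F₂ G₂ := by
  refine ⟨_, M.smul_mem ((dim L + 4) / (3 * (lam + 4 * dim L))) (hM.X _ mw), _,
    M.smul_mem (-((dim L + 4) / (lam + 4 * dim L))) mw, _,
    M.smul_mem (-((dim L + 4) / (2 * (lam + 4 * dim L)))) (hM.X _ mw), 0, M.zero_mem, ?_⟩
  rw [PP_w H tφ T]
  exact h

/-- **S0, quaternionic hyperbolic space** -/
theorem s0_H (Φ : Flw L) {m : ℝ} (hd : L.d = 3) (he : L.e = 4 * m - 4) (hm : 2 ≤ m)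
    (eig : ∀ f, L.Lam f = lam • f) (defi : ∀ f, L.ip f f = 0 → f = 0)
    (hUL : ∀ t f, L.LamL (Φ.U t f) = Φ.U t (L.LamL f)) {φ w : W} (tφ : Typ L 0 0 φ)
    (tw : Typ L 2 0 w) (hT20 : w ≠ 0 → 8 * m ≤ lam) (hne : φ + w ≠ 0) (M : Submodule ℝ W)
    (hM : Stable L M) (hMU : ∀ t, ∀ u ∈ M, Φ.U t u ∈ M) (mφ : φ ∈ M) (mw : w ∈ M) :
    ∃ F₁ ∈ M, ∃ G₁ ∈ M, ∃ F₂ ∈ M, ∃ G₂ ∈ M, 0 < PP L (φ + w) F₁ G₁ F₂ G₂ := by
  have hn : dim L = 4 * m := by unfold dim; rw [hd, he]; ring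
  by_cases hw : w = 0
  · exact s0_const defi (by rw [hn]; linarith) tφ hw hne M
  have h8 := hT20 hw
  have hlam : 0 < lam := by linarith
  have H : S0H L lam := ⟨defi, eig, by rw [hd]; norm_num, by rw [he]; linarith⟩
  have hW := pos_of_ne defi hw
  obtain ⟨v, a', b', T0⟩ := H.exists_tree0 tφ
  obtain ⟨s, u, a, b, c, p, k, T⟩ := H.exists_tree2 tw
  obtain ⟨W0, W1, W2, h0, h1, h2, eW, eβ, eζ, c0, c1⟩ := split H hlam T
  have hγ := cs L φ c
  rw [hn, hd] at eβ eζ c0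
  rw [eζ] at hγ
  rw [eW] at hW
  have hpos : 0 < L.ip φ φ + W0 + W1 + W2 := by linarith [L.nonneg φ]
  rcases le_or_gt lam (24 * m) with hle | hgt
  · refine H143.low_pos Φ H hlam T0 T hUL hMU (M.add_mem mφ mw) (by rw [hd])
      (by rw [hd, he]; linarith) (κ₀ := 1 / 12) ?_
    rw [hn, hd, eW, eβ, eζ]
    refine H722.S0.low_H hm h8 hle (L.nonneg φ) h0 h1 h2 ?_ hγ hpos
    rcases c0 with c0 | c0
    · exact Or.inl c0
    · right
      unfold b1 at c0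
      have h5 : (0 : ℝ) < (3 + 1) * (4 * m + 2) := by linarith
      have h6 := (div_pos_iff_of_pos_right h5).1 c0
      linarith
  · refine s0_first H tφ T hM mw ?_
    rw [hn, hd, eW, eβ, eζ]
    exact H722.S0.high_H hm hgt.le (L.nonneg φ) h0 h1 h2 hγ hpos

/-- **S0, Cayley hyperbolic plane** -/
theorem s0_C (Φ : Flw L) (hd : L.d = 7) (he : L.e = 8)
    (eig : ∀ f, L.Lam f = lam • f) (defi : ∀ f, L.ip f f = 0 → f = 0)
    (hUL : ∀ t f, L.LamL (Φ.U t f) = Φ.U t (L.LamL f)) {φ w : W} (tφ : Typ L 0 0 φ)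
    (tw : Typ L 2 0 w) (hne : φ + w ≠ 0) (M : Submodule ℝ W)
    (hM : Stable L M) (hMU : ∀ t, ∀ u ∈ M, Φ.U t u ∈ M) (mφ : φ ∈ M) (mw : w ∈ M) :
    ∃ F₁ ∈ M, ∃ G₁ ∈ M, ∃ F₂ ∈ M, ∃ G₂ ∈ M, 0 < PP L (φ + w) F₁ G₁ F₂ G₂ := by
  have hn : dim L = 16 := by unfold dim; rw [hd, he]; norm_num
  by_cases hw : w = 0
  · exact s0_const defi (by rw [hn]; norm_num) tφ hw hne M
  have H : S0H L lam := ⟨defi, eig, by rw [hd]; norm_num, by rw [he]; norm_num⟩
  obtain ⟨v, a', b', T0⟩ := H.exists_tree0 tφ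
  obtain ⟨s, u, a, b, c, p, k, T⟩ := H.exists_tree2 tw
  have h56 := lam_ge_C H hd he T hw
  have hlam : 0 < lam := by linarith
  have hW := pos_of_ne defi hw
  obtain ⟨W0, W1, W2, h0, h1, h2, eW, eβ, eζ, c0, c1⟩ := split H hlam T
  have hγ := cs L φ c
  rw [hn, hd] at eβ eζ c0 c1
  rw [eζ] at hγ
  rcases lt_or_ge lam 96 with hlt | hge
  · have hb0 : b0 16 7 lam < 0 := by
      unfold b0
      have e : 2 * (16 - 7 - 1) * (lam - 16 * (7 - 1)) / (16 * (7 + 1) * (16 + 2)) =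
        (lam - 96) / (144 : ℝ) := by ring
      rw [e]
      exact div_neg_of_neg_of_pos (by linarith) (by norm_num)
    have hb1 : b1 16 7 lam < 0 := by
      unfold b1
      have e : (lam - 2 * (7 - 1) * (16 - 7 - 1)) / ((7 + 1) * (16 + 2)) =
        (lam - 96) / (144 : ℝ) := by ring
      rw [e]
      exact div_neg_of_neg_of_pos (by linarith) (by norm_num)
    have e0 : W0 = 0 := by
      rcases c0 with c0 | c0
      · exact c0
      · linarith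
    have e1 : W1 = 0 := by
      rcases c1 with c1 | c1
      · exact c1
      · linarith
    have hφ : L.ip φ φ = 0 := by
      have h3 := T0.bb H
      have h4 := L.nonneg b'
      rw [h3, hn, hd] at h4
      have h5 := L.nonneg φ
      by_contra hc
      have h6 : 0 < L.ip φ φ := lt_of_le_of_ne h5 (Ne.symm hc)
      have h7 : b0 16 7 lam * (lam / 16 * L.ip φ φ) < 0 :=
        mul_neg_of_neg_of_pos hb0 (by positivity)
      linarith
    have hγ0 : L.ip φ c = 0 := by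
      rw [hφ, zero_mul] at hγ
      exact pow_eq_zero_iff (two_ne_zero) |>.1 (le_antisymm hγ (sq_nonneg _))
    refine H143.low_pos Φ H hlam T0 T hUL hMU (M.add_mem mφ mw) (by rw [hd]; norm_num)
      (by rw [hd, he]; norm_num) (κ₀ := 1 / 16) ?_
    rw [hn, hd, eβ, eζ, hφ, hγ0, e0, e1]
    simp only [mul_zero, add_zero]
    exact H722.S0.low_C h56 hlt.le hW
  · refine s0_first H tφ T hM mw ?_
    have hpos : 0 < L.ip φ φ + W0 + W1 + W2 := by
      rw [eW] at hW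
      linarith [L.nonneg φ]
    rw [hn, hd, eW, eβ, eζ]
    exact H722.S0.high_C hge (L.nonneg φ) h0 h1 h2 hγ hpos

end Vale.Agent.P207.H992
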