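import Vale.Agent.P207.Low.Abs

/-!
# P207, S0: the tree of a function of type `(2,0)` up to the second level
-/

noncomputable section

namespace Vale.Agent.P207.H992

open Vale.Agent.P207.H662 Vale.Agent.P207.Low

variable {W : Type*} [AddCommGroup W] [Module ℝ W]

/-- the standing hypotheses: definite inner product, one eigenvalue of `Λ` -/
structure S0H (L : Lad W) (lam : ℝ) : Prop where
  defi : ∀ u, L.ip u u = 0 → u = 0
  eig : ∀ u, L.Lam u = lam • u
  hd : 2 < L.d
  he : 0 < L.e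

section Basic

variable {L : Lad W}

theorem Δ1_nonneg (u : W) : 0 ≤ L.ip (L.L1.Δ u) u := by
  have h := L.L1.pos u 0
  simpa using h

theorem Δ2_nonneg (u : W) : 0 ≤ L.ip (L.L2.Δ u) u := by
  have h := L.L2.pos u 0
  simpa using h

theorem D_nonneg (u : W) : 0 ≤ L.ip (L.D u) u := by
  rw [Lad.D_apply, map_add, LinearMap.add_apply]
  exact add_nonneg (Δ1_nonneg u) (Δ2_nonneg u)

theorem D_symm' (u v : W) : L.ip (L.D u) v = L.ip u (L.D v) := by
  rw [Lad.D_apply, Lad.D_apply, map_add, map_add, LinearMap.add_apply, L.L1.Δ_symm, L.L2.Δ_symm]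

theorem D_T (u : W) : L.D (L.L2.Δ u) = L.L2.Δ (L.D u) := by
  rw [Lad.D_apply, Lad.D_apply, map_add, L.comm]

/-- quadratic polynomials -/
theorem eq_zero_of_quad {a b c : ℝ} (hc : c = 0) (h : ∀ t : ℝ, 0 ≤ a * t ^ 2 + 2 * b * t + c) :
    b = 0 := by
  subst hc
  by_contra hb
  have h1 := h (-b / (|a| + 1))
  have ha : 0 < |a| + 1 := by positivity
  have h2 : a ≤ |a| + 1 := (le_abs_self a).trans (by linarith)
  have h3 : a * (-b / (|a| + 1)) ^ 2 ≤ (|a| + 1) * (-b / (|a| + 1)) ^ 2 :=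
    mul_le_mul_of_nonneg_right h2 (sq_nonneg _)
  have h4 : (|a| + 1) * (-b / (|a| + 1)) ^ 2 = b ^ 2 / (|a| + 1) := by field_simp
  have h5 : 2 * b * (-b / (|a| + 1)) = -2 * (b ^ 2 / (|a| + 1)) := by ring
  have h6 : 0 < b ^ 2 / (|a| + 1) := by positivity
  rw [h4] at h3
  rw [h5] at h1
  linarith

theorem Δ2_eq_zero (hdef : ∀ u, L.ip u u = 0 → u = 0) {u : W} (h : L.ip (L.L2.Δ u) u = 0) :
    L.L2.Δ u = 0 := by
  apply hdef
  refine eq_zero_of_quad (a := L.ip (L.L2.Δ (L.L2.Δ u)) (L.L2.Δ u)) (c := 0) rfl fun t => ?_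
  have h1 := Δ2_nonneg (L := L) (t • L.L2.Δ u + u)
  simp only [map_add, map_smul, LinearMap.add_apply, LinearMap.smul_apply, smul_eq_mul] at h1
  have h2 : L.ip (L.L2.Δ (L.L2.Δ u)) u = L.ip (L.L2.Δ u) (L.L2.Δ u) := L.L2.Δ_symm _ _
  rw [h2, h] at h1
  linarith

/-- a vector which is an eigenvector of a nonnegative operator for a negative eigenvalue -/
theorem eq_zero_of_neg (hdef : ∀ u, L.ip u u = 0 → u = 0) {T : W →ₗ[ℝ] W}
    (hT : ∀ u, 0 ≤ L.ip (T u) u) {μ : ℝ} (hμ : μ < 0) {u : W} (h : T u = μ • u) : u = 0 := by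
  apply hdef
  have h1 := hT u
  rw [h, map_smul, LinearMap.smul_apply, smul_eq_mul] at h1
  have h2 := L.nonneg u
  nlinarith

/-- eigenfunctions are orthogonal -/
theorem T_orth {u v : W} {a b : ℝ} (hu : L.L2.Δ u = a • u) (hv : L.L2.Δ v = b • v)
    (hab : a ≠ b) : L.ip u v = 0 := by
  have h1 := L.L2.Δ_symm u v
  rw [hu, hv, map_smul, LinearMap.smul_apply, map_smul, smul_eq_mul, smul_eq_mul] at h1
  have h2 : (a - b) * L.ip u v = 0 := by linarith
  rcases mul_eq_zero.1 h2 with h3 | h3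
  · exact absurd (sub_eq_zero.1 h3) hab
  · exact h3

end Basic

section Rel

variable {L : Lad W}

/-- the fibre relation on an eigenvector of `D` -/
theorem DDX {δ : ℝ} {u : W} (hu : L.D u = δ • u) :
    L.D (L.D (L.X u)) = (2 * δ + 2) • L.D (L.X u) +
      (-δ ^ 2 + 2 * δ + (L.e + L.d) * (L.e + L.d - 2)) • L.X u := by
  have h := L.deg u
  have e1 : ∀ v, (L.L1.Δ + L.L2.Δ) v = L.D v := fun v => rfl
  simp only [e1, hu, map_smul] at h
  linear_combination (norm := module) h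

/-- the leafwise relation on an eigenvector of `Δ_2` -/
theorem TTX {τ : ℝ} {u : W} (hu : L.L2.Δ u = τ • u) :
    L.L2.Δ (L.L2.Δ (L.X u)) = (2 * τ + 2) • L.L2.Δ (L.X u) +
      (-τ ^ 2 + 2 * τ + L.d * (L.d - 2)) • L.X u := by
  have h := L.deg2 u
  simp only [hu, map_smul] at h
  linear_combination (norm := module) h

/-- `Λ` on an eigenvector of `D` and `Δ_2` -/
theorem Lam_eq {δ τ : ℝ} {u : W} (hu : L.D u = δ • u) (hu2 : L.L2.Δ u = τ • u) :
    L.Lam u = (δ / 2 - 1) • L.X (L.X u) - L.X (L.D (L.X u)) + (1 / 2 : ℝ) • L.D (L.X (L.X u)) -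
      (2 * δ + 6 * τ) • u := by
  have h1 : L.L1.Δ u = (δ - τ) • u := by
    have h2 := hu
    rw [Lad.D_apply, hu2] at h2
    linear_combination (norm := module) h2
  rw [Lad.Lam_apply, Lad.C1_eq, Lad.C2_eq, h1, hu2]
  simp only [Lad.D_apply, map_smul, map_add]
  module

theorem LamL_eq {τ : ℝ} {u : W} (hu : L.L2.Δ u = τ • u) :
    L.LamL u = (τ / 2 - 1) • L.X (L.X u) - L.X (L.L2.Δ (L.X u)) +
      (1 / 2 : ℝ) • L.L2.Δ (L.X (L.X u)) - (8 * τ) • u := by
  rw [Lad.LamL_apply, Lad.C2_eq, hu]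
  simp only [map_smul]
  module

end Rel

section Tree

variable {L : Lad W} {lam : ℝ}

/-- `T X f = d X f` if `T f = 0` -/
theorem S0H.TX (H : S0H L lam) {f : W} (hf : L.L2.Δ f = 0) :
    L.L2.Δ (L.X f) = L.d • L.X f := by
  have h1 := TTX (L := L) (τ := 0) (u := f) (by rw [hf, zero_smul])
  have h2 : L.L2.Δ (L.X f) - L.d • L.X f = 0 := by
    refine eq_zero_of_neg H.defi (T := L.L2.Δ) Δ2_nonneg (μ := -(L.d - 2))
      (by linarith [H.hd]) ?_
    rw [map_sub, map_smul, h1]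
    module
  exact sub_eq_zero.1 h2

/-- `D X f = (n - 1) X f` if `D f = 0` -/
theorem S0H.DX (H : S0H L lam) {f : W} (hf : L.D f = 0) :
    L.D (L.X f) = (dim L - 1) • L.X f := by
  have h1 := DDX (L := L) (δ := 0) (u := f) (by rw [hf, zero_smul])
  have h2 : L.D (L.X f) - (dim L - 1) • L.X f = 0 := by
    refine eq_zero_of_neg H.defi (T := L.D) D_nonneg (μ := -(dim L - 3))
      (by unfold dim; linarith [H.hd, H.he]) ?_
    rw [map_sub, map_smul, h1]
    unfold dim
    module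
  exact sub_eq_zero.1 h2

/-- the tree of a vector of type `(0,0)` -/
structure Tree0 (L : Lad W) (lam : ℝ) (f v a b : W) : Prop where
  Xf : L.X f = v
  Xv : L.X v = a + b - (lam / dim L) • f
  tf : Typ L 0 0 f
  tv : Typ L 1 1 v
  ta : Typ L 2 2 a
  tb : Typ L 2 0 b

/-- the tree of a vector of type `(2,0)` -/
structure Tree2 (L : Lad W) (lam : ℝ) (w s u a b c p k : W) : Prop where
  Xw : L.X w = s - u
  Xu : L.X u = a + b - c
  Xs : L.X s = p + k - ((lam + 4 * dim L) / (dim L + 4)) • w -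
    (dim L / (dim L + 4)) • (a + b)
  tw : Typ L 2 0 w
  ts : Typ L 3 1 s
  tu : Typ L 1 1 u
  ta : Typ L 2 2 a
  tb : Typ L 2 0 b
  tc : Typ L 0 0 c
  tp : Typ L 4 2 p
  tk : Typ L 4 0 k

theorem S0H.dim_pos (H : S0H L lam) : 3 < dim L := by
  unfold dim; linarith [H.hd, H.he]

/-- splitting of `X u` for `u` of type `(1,1)` -/
theorem S0H.split11 (H : S0H L lam) {u : W} (hu : Typ L 1 1 u) :
    ∃ a b c : W, L.X u = a + b - c ∧ Typ L 2 2 a ∧ Typ L 2 0 b ∧ Typ L 0 0 c := by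
  have hn := H.dim_pos
  have hn0 : dim L ≠ 0 := by linarith
  have hd := H.hd
  have hd1 : L.d + 1 ≠ 0 := by linarith
  have hD := hu.D
  have hT := hu.D2
  have h1 : L.D (L.D (L.X u)) = (2 * dim L) • L.D (L.X u) := by
    rw [DDX hD]
    unfold dim
    module
  have h2 : L.L2.Δ (L.L2.Δ (L.X u)) = (2 * (L.d + 1)) • L.L2.Δ (L.X u) := by
    rw [TTX hT]
    module
  set q := (1 / (2 * dim L)) • L.D (L.X u) with hq
  have hDq : L.D q = (2 * dim L) • q := by
    rw [hq, map_smul, h1, smul_comm]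
  have hTq : L.L2.Δ (L.L2.Δ q) = (2 * (L.d + 1)) • L.L2.Δ q := by
    rw [hq, map_smul, map_smul, ← D_T, ← D_T, h2, map_smul, smul_comm]
  set a := (1 / (2 * (L.d + 1))) • L.L2.Δ q with ha
  have hTa : L.L2.Δ a = (2 * (L.d + 1)) • a := by
    rw [ha, map_smul, hTq, smul_comm]
  have hDa : L.D a = (2 * dim L) • a := by
    rw [ha, map_smul, D_T, hDq, map_smul, smul_comm]
  have ha2 : (2 * (L.d + 1)) • a = L.L2.Δ q := by
    rw [ha, smul_smul]
    rw [show 2 * (L.d + 1) * (1 / (2 * (L.d + 1))) = 1 by field_simp, one_smul]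
  have hc0 : L.D (q - L.X u) = 0 := by
    rw [map_sub, hDq, hq, smul_smul]
    rw [show 2 * dim L * (1 / (2 * dim L)) = 1 by field_simp, one_smul, sub_self]
  have hTc : L.L2.Δ (q - L.X u) = 0 := by
    apply Δ2_eq_zero H.defi
    have h3 := Δ1_nonneg (L := L) (q - L.X u)
    have h4 := Δ2_nonneg (L := L) (q - L.X u)
    have h5 : L.ip (L.D (q - L.X u)) (q - L.X u) = 0 := by
      rw [hc0, map_zero, LinearMap.zero_apply]
    rw [Lad.D_apply, map_add, LinearMap.add_apply] at h5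
    linarith
  refine ⟨a, q - a, q - L.X u, by abel, ⟨?_, ?_⟩, ⟨?_, ?_⟩, ⟨?_, ?_⟩⟩
  · rw [hTa]; congr 1; ring
  · rw [hDa]; congr 1; ring
  · rw [map_sub, hTa, ha2]; simp
  · rw [map_sub, hDq, hDa, ← smul_sub]; congr 1; ring
  · rw [hTc]; simp
  · rw [hc0]; simp

theorem S0H.exists_tree0 (H : S0H L lam) {f : W} (hf : Typ L 0 0 f) :
    ∃ v a b : W, Tree0 L lam f v a b := by
  have hn := H.dim_pos
  have hn0 : dim L ≠ 0 := by linarith
  have hDf : L.D f = 0 := by rw [hf.D]; simp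
  have hTf : L.L2.Δ f = 0 := by rw [hf.D2]; simp
  have hDv := H.DX hDf
  have hTv := H.TX hTf
  have tv : Typ L 1 1 (L.X f) := ⟨by rw [hTv]; congr 1; ring, by rw [hDv]; congr 1; ring⟩
  obtain ⟨a, b, c, h1, ha, hb, hc⟩ := H.split11 tv
  have hDc : L.D c = 0 := by rw [hc.D]; simp
  refine ⟨L.X f, a, b, rfl, ?_, hf, tv, ha, hb⟩
  have h2 := Lam_eq (L := L) (δ := 0) (τ := 0) (u := f) (by rw [hDf, zero_smul])
    (by rw [hTf, zero_smul])
  rw [H.eig, hDv, map_smul, h1, map_sub, map_add, ha.D, hb.D, hDc] at h2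
  have h3 : (dim L) • c = lam • f := by
    rw [h2]
    module
  have h4 : c = (lam / dim L) • f := by
    have h5 := congrArg (fun x => (1 / dim L) • x) h3
    simp only [smul_smul] at h5
    rw [show 1 / dim L * dim L = 1 by field_simp, one_smul,
      show 1 / dim L * lam = lam / dim L by ring] at h5
    exact h5
  rw [h1, h4]

theorem S0H.exists_tree2 (H : S0H L lam) {w : W} (hw : Typ L 2 0 w) :
    ∃ s u a b c p k : W, Tree2 L lam w s u a b c p k := by
  have hn := H.dim_pos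
  have hn0 : dim L ≠ 0 := by linarith
  have hn2 : 2 * dim L + 4 ≠ 0 := by linarith
  have hn4 : dim L + 4 ≠ 0 := by linarith
  have hn8 : 2 * dim L + 8 ≠ 0 := by linarith
  have hd := H.hd
  have hd1 : L.d + 1 ≠ 0 := by linarith
  have hDw : L.D w = (2 * dim L) • w := by rw [hw.D]; congr 1; ring
  have hTw : L.L2.Δ w = 0 := by rw [hw.D2]; simp
  have hTX := H.TX hTw
  have h1 : L.D (L.D (L.X w)) = (4 * dim L + 2) • L.D (L.X w) -
      (3 * (dim L + 1) * (dim L - 1)) • L.X w := by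
    rw [DDX hDw]
    unfold dim
    module
  -- the two components of `X w`
  set s := (1 / (2 * dim L + 4)) • (L.D (L.X w) - (dim L - 1) • L.X w) with hs
  set u := (1 / (2 * dim L + 4)) • (L.D (L.X w) - (3 * (dim L + 1)) • L.X w) with hu
  have hXw : L.X w = s - u := by
    rw [hs, hu, ← smul_sub]
    have e1 : L.D (L.X w) - (dim L - 1) • L.X w -
        (L.D (L.X w) - (3 * (dim L + 1)) • L.X w) = (2 * dim L + 4) • L.X w := by module
    rw [e1, smul_smul, show 1 / (2 * dim L + 4) * (2 * dim L + 4) = 1 by field_simp, one_smul]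
  have hDs : L.D s = (3 * (dim L + 1)) • s := by
    rw [hs, map_smul, map_sub, map_smul, h1]
    module
  have hDu : L.D u = (dim L - 1) • u := by
    rw [hu, map_smul, map_sub, map_smul, h1]
    module
  have hTD : L.L2.Δ (L.D (L.X w)) = L.d • L.D (L.X w) := by
    rw [← D_T, hTX, map_smul]
  have hTs : L.L2.Δ s = L.d • s := by
    rw [hs, map_smul, map_sub, map_smul, hTD, hTX]
    module
  have hTu : L.L2.Δ u = L.d • u := by
    rw [hu, map_smul, map_sub, map_smul, hTD, hTX]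
    module
  have tu : Typ L 1 1 u := ⟨by rw [hTu]; congr 1; ring, by rw [hDu]; congr 1; ring⟩
  have ts : Typ L 3 1 s := ⟨by rw [hTs]; congr 1; ring, by rw [hDs]; congr 1; ring⟩
  obtain ⟨a, b, c, h2, ta, tb, tc⟩ := H.split11 tu
  have hDc : L.D c = 0 := by rw [tc.D]; simp
  have hDab : L.D (a + b) = (2 * dim L) • (a + b) := by
    rw [map_add, ta.D, tb.D, ← smul_add]; congr 1; ring
  clear_value s u
  -- the two components of `X s`
  have h3 : L.D (L.D (L.X s)) = (6 * dim L + 8) • L.D (L.X s) -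
      (8 * dim L * (dim L + 2)) • L.X s := by
    rw [DDX hDs]
    unfold dim
    module
  set P := (1 / (2 * dim L + 8)) • (L.D (L.X s) - (2 * dim L) • L.X s) with hP
  set Q := (1 / (2 * dim L + 8)) • (L.D (L.X s) - (4 * (dim L + 2)) • L.X s) with hQ
  have hXs : L.X s = P - Q := by
    rw [hP, hQ, ← smul_sub]
    have e1 : L.D (L.X s) - (2 * dim L) • L.X s -
        (L.D (L.X s) - (4 * (dim L + 2)) • L.X s) = (2 * dim L + 8) • L.X s := by module
    rw [e1, smul_smul, show 1 / (2 * dim L + 8) * (2 * dim L + 8) = 1 by field_simp, one_smul]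
  have hDP : L.D P = (4 * (dim L + 2)) • P := by
    rw [hP, map_smul, map_sub, map_smul, h3]
    module
  have hDQ : L.D Q = (2 * dim L) • Q := by
    rw [hQ, map_smul, map_sub, map_smul, h3]
    module
  have h4 : L.L2.Δ (L.L2.Δ (L.X s)) = (2 * (L.d + 1)) • L.L2.Δ (L.X s) := by
    rw [TTX hTs]
    module
  have hTP : L.L2.Δ (L.L2.Δ P) = (2 * (L.d + 1)) • L.L2.Δ P := by
    rw [hP]
    simp only [map_smul, map_sub, ← D_T]
    rw [h4]
    simp only [map_smul]
    module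
  set p := (1 / (2 * (L.d + 1))) • L.L2.Δ P with hp
  have hTp : L.L2.Δ p = (2 * (L.d + 1)) • p := by
    rw [hp, map_smul, hTP, smul_comm]
  have hDp : L.D p = (4 * (dim L + 2)) • p := by
    rw [hp, map_smul, D_T, hDP, map_smul, smul_comm]
  have hp2 : (2 * (L.d + 1)) • p = L.L2.Δ P := by
    rw [hp, smul_smul]
    rw [show 2 * (L.d + 1) * (1 / (2 * (L.d + 1))) = 1 by field_simp, one_smul]
  have tp : Typ L 4 2 p := ⟨by rw [hTp]; congr 1; ring, by rw [hDp]; congr 1; ring⟩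
  have tk : Typ L 4 0 (P - p) := ⟨by rw [map_sub, hTp, hp2]; simp,
    by rw [map_sub, hDP, hDp, ← smul_sub]; congr 1; ring⟩
  -- the lower component
  have h5 := Lam_eq (L := L) (δ := 2 * dim L) (τ := 0) (u := w) hDw (by rw [hTw, zero_smul])
  rw [H.eig, hXw] at h5
  simp only [map_sub, hDs, hDu, map_smul, hXs, h2, hDP, hDQ, hDab, hDc] at h5
  have h6 : (dim L + 4) • Q = (lam + 4 * dim L) • w + dim L • (a + b) := by
    linear_combination (norm := module) -h5
  have h7 : Q = ((lam + 4 * dim L) / (dim L + 4)) • w + (dim L / (dim L + 4)) • (a + b) := by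
    have h8 := congrArg (fun x => (1 / (dim L + 4)) • x) h6
    simp only [smul_smul, smul_add] at h8
    rw [show 1 / (dim L + 4) * (dim L + 4) = 1 by field_simp, one_smul,
      show 1 / (dim L + 4) * (lam + 4 * dim L) = (lam + 4 * dim L) / (dim L + 4) by ring,
      show 1 / (dim L + 4) * dim L = dim L / (dim L + 4) by ring, ← smul_add] at h8
    exact h8
  refine ⟨s, u, a, b, c, p, P - p, hXw, h2, ?_, hw, ts, tu, ta, tb, tc, tp, tk⟩
  rw [hXs, h7]
  abel

end Tree

end Vale.Agent.P207.H992
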