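import Vale.Agent.P207.H992.S0a

/-!
# P207, S0: the Gram data of the tree of a function of type `(2,0)`
-/

noncomputable section

namespace Vale.Agent.P207.H992

open Vale.Agent.P207.H662 Vale.Agent.P207.Low

variable {W : Type*} [AddCommGroup W] [Module ℝ W] {L : Lad W} {lam : ℝ}

section Bil

/-- **the ladder identity** -/
theorem S0H.bil (H : S0H L lam) {δ τ : ℝ} {g h : W} (hg : L.D g = δ • g)
    (hg2 : L.L2.Δ g = τ • g) (hh : L.D h = δ • h) :
    lam * L.ip g h = (1 - δ) * L.ip (L.X g) (L.X h) + L.ip (L.D (L.X g)) (L.X h) -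
      (2 * δ + 6 * τ) * L.ip g h := by
  have h1 := congrArg (fun x => L.ip x h) (Lam_eq (L := L) hg hg2)
  simp only [H.eig, map_sub, map_add, map_smul, LinearMap.sub_apply, LinearMap.add_apply,
    LinearMap.smul_apply, smul_eq_mul] at h1
  have h2 : L.ip (L.D (L.X (L.X g))) h = δ * L.ip (L.X (L.X g)) h := by
    rw [D_symm', hh, map_smul, smul_eq_mul]
  rw [h2] at h1
  simp only [L.skew] at h1
  have h3 : L.ip (L.X g) (L.X h) = - L.ip g (L.X (L.X h)) := L.skew _ _
  have h4 : L.ip (L.D (L.X g)) (L.X h) = L.ip (L.D (L.X g)) (L.X h) := rfl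
  rw [h3]
  linarith

/-- **the leaf identity** -/
theorem S0H.leaf (H : S0H L lam) {f g : W} (hf : L.L2.Δ f = 0) (hg : L.L2.Δ g = L.d • g) :
    (3 / 2) * L.ip (L.L2.Δ (L.X (L.X f))) (L.X g) =
      2 * L.d * L.ip (L.X (L.X f)) (L.X g) + 8 * L.d * L.ip (L.X f) g := by
  have hX := H.TX hf
  have h1 := congrArg (fun x => L.ip x g) (LamL_eq (L := L) hX)
  have h2 := LamL_eq (L := L) (τ := 0) (u := f) (by rw [hf, zero_smul])
  have h3 : L.ip (L.LamL (L.X f)) g = L.ip (L.X (L.LamL f)) g := by rw [L.X_LamL]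
  rw [h2, hX] at h3
  simp only [map_sub, map_add, map_smul, LinearMap.sub_apply, LinearMap.add_apply,
    LinearMap.smul_apply, smul_eq_mul] at h1 h3
  have h4 : L.ip (L.L2.Δ (L.X (L.X (L.X f)))) g = L.d * L.ip (L.X (L.X (L.X f))) g := by
    rw [L.L2.Δ_symm, hg, map_smul, smul_eq_mul]
  rw [h3, h4] at h1
  have e1 : ∀ x y, L.ip (L.X x) y = - L.ip x (L.X y) := L.skew
  have e2 : L.ip (L.X (L.X (L.X f))) g = - L.ip (L.X (L.X f)) (L.X g) := L.skew _ _
  have e3 : L.ip (L.X (L.L2.Δ (L.X (L.X f)))) g = - L.ip (L.L2.Δ (L.X (L.X f))) (L.X g) :=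
    L.skew _ _
  simp only [e2, e3] at h1
  linarith

theorem cs (L : Lad W) (u v : W) : L.ip u v ^ 2 ≤ L.ip u u * L.ip v v := by
  have h : ∀ t : ℝ, 0 ≤ L.ip v v * (t * t) + (2 * L.ip u v) * t + L.ip u u := by
    intro t
    have h1 := L.nonneg (u + t • v)
    simp only [map_add, map_smul, LinearMap.add_apply, LinearMap.smul_apply, smul_eq_mul] at h1
    rw [L.symm v u] at h1
    linarith
  have h2 := discrim_le_zero h
  unfold discrim at h2
  linarith

end Bil

namespace Tree0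

variable {f v a b : W} (T : Tree0 L lam f v a b)
include T

theorem TXv : L.L2.Δ (L.X (L.X f)) = (2 * (L.d + 1)) • a := by
  rw [T.Xf, T.Xv, map_sub, map_add, map_smul, T.ta.D2, T.tb.D2, T.tf.D2]
  module

end Tree0

namespace Tree2

variable {w s u a b c p k : W} (T : Tree2 L lam w s u a b c p k) (H : S0H L lam)

section
include T

theorem T_X2w : L.L2.Δ (L.X (L.X w)) = (2 * (L.d + 1)) • p -
    ((1 + dim L / (dim L + 4)) * (2 * (L.d + 1))) • a := by
  rw [T.Xw, map_sub, T.Xs, T.Xu]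
  simp only [map_sub, map_add, map_smul, T.ta.D2, T.tb.D2, T.tc.D2, T.tp.D2, T.tk.D2, T.tw.D2]
  module

theorem X2w : L.X (L.X w) = p + k - ((lam + 4 * dim L) / (dim L + 4)) • w -
    (1 + dim L / (dim L + 4)) • (a + b) + c := by
  rw [T.Xw, map_sub, T.Xs, T.Xu]
  module

end

section Orth
include T H

theorem o_ab : L.ip a b = 0 :=
  T_orth (a := 2 * (2 + L.d - 1)) (b := 0) T.ta.D2 (by rw [T.tb.D2]; simp)
    (by have := H.hd; intro h; linarith)

theorem o_aw : L.ip a w = 0 :=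
  T_orth (a := 2 * (2 + L.d - 1)) (b := 0) T.ta.D2 (by rw [T.tw.D2]; simp)
    (by have := H.hd; intro h; linarith)

theorem o_ac : L.ip a c = 0 :=
  T_orth (a := 2 * (2 + L.d - 1)) (b := 0) T.ta.D2 (by rw [T.tc.D2]; simp)
    (by have := H.hd; intro h; linarith)

theorem o_pk : L.ip p k = 0 :=
  T_orth (a := 2 * (2 + L.d - 1)) (b := 0) T.tp.D2 (by rw [T.tk.D2]; simp)
    (by have := H.hd; intro h; linarith)

theorem o_pw : L.ip p w = 0 :=
  D_orth L T.tp.D T.tw.D (by have := H.dim_pos; intro h; nlinarith)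

theorem o_pa : L.ip p a = 0 :=
  D_orth L T.tp.D T.ta.D (by have := H.dim_pos; intro h; nlinarith)

theorem o_pb : L.ip p b = 0 :=
  D_orth L T.tp.D T.tb.D (by have := H.dim_pos; intro h; nlinarith)

theorem o_pc : L.ip p c = 0 :=
  D_orth L T.tp.D T.tc.D (by have := H.dim_pos; intro h; nlinarith)

theorem o_kw : L.ip k w = 0 :=
  D_orth L T.tk.D T.tw.D (by have := H.dim_pos; intro h; nlinarith)

theorem o_ka : L.ip k a = 0 :=
  D_orth L T.tk.D T.ta.D (by have := H.dim_pos; intro h; nlinarith)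

theorem o_kb : L.ip k b = 0 :=
  D_orth L T.tk.D T.tb.D (by have := H.dim_pos; intro h; nlinarith)

theorem o_kc : L.ip k c = 0 :=
  D_orth L T.tk.D T.tc.D (by have := H.dim_pos; intro h; nlinarith)

theorem o_wc : L.ip w c = 0 :=
  D_orth L T.tw.D T.tc.D (by have := H.dim_pos; intro h; nlinarith)

theorem o_bc : L.ip b c = 0 :=
  D_orth L T.tb.D T.tc.D (by have := H.dim_pos; intro h; nlinarith)

theorem o_su : L.ip s u = 0 :=
  D_orth L T.ts.D T.tu.D (by have := H.dim_pos; intro h; nlinarith)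

/-- `⟨b, w⟩ = |u|²` -/
theorem bw : L.ip b w = L.ip u u := by
  have h1 : L.ip (L.X u) w = - L.ip u (L.X w) := L.skew _ _
  rw [T.Xu, T.Xw] at h1
  simp only [map_sub, map_add, LinearMap.sub_apply, LinearMap.add_apply] at h1
  rw [T.o_aw H, L.symm c w, T.o_wc H, L.symm u s, T.o_su H] at h1
  linarith

/-- `|s|²` -/
theorem ss : L.ip s s = (lam + 4 * dim L) / (dim L + 4) * L.ip w w +
    dim L / (dim L + 4) * L.ip u u := by
  have h1 : L.ip (L.X s) w = - L.ip s (L.X w) := L.skew _ _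
  rw [T.Xs, T.Xw] at h1
  simp only [map_sub, map_add, map_smul, LinearMap.sub_apply, LinearMap.add_apply,
    LinearMap.smul_apply, smul_eq_mul] at h1
  rw [T.o_pw H, T.o_kw H, T.o_aw H, T.bw H, T.o_su H] at h1
  linarith

/-- the ladder identity for `u` -/
theorem r_u : (dim L + 2) * (L.ip a a + L.ip b b) - (dim L - 2) * L.ip c c =
    (lam + 2 * (dim L - 1) + 6 * L.d) * L.ip u u := by
  have hu : L.D u = (dim L - 1) • u := by rw [T.tu.D]; congr 1; ring
  have h1 := H.bil (τ := L.d) hu (by rw [T.tu.D2]; congr 1; ring) hu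
  rw [T.Xu] at h1
  simp only [map_sub, map_add, map_smul, LinearMap.sub_apply, LinearMap.add_apply,
    LinearMap.smul_apply, smul_eq_mul, T.ta.D, T.tb.D, T.tc.D] at h1
  rw [T.o_ab H, T.o_ac H, L.symm b a, T.o_ab H, T.o_bc H, L.symm c a, T.o_ac H, L.symm c b,
    T.o_bc H] at h1
  linarith

/-- the ladder identity for `s` -/
theorem r_s : (dim L + 6) * (L.ip p p + L.ip k k) - (dim L + 2) *
      (((lam + 4 * dim L) / (dim L + 4)) ^ 2 * L.ip w w +
        2 * ((lam + 4 * dim L) / (dim L + 4)) * (dim L / (dim L + 4)) * L.ip u u +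
        (dim L / (dim L + 4)) ^ 2 * (L.ip a a + L.ip b b)) =
    (lam + 6 * (dim L + 1) + 6 * L.d) * L.ip s s := by
  have hs : L.D s = (3 * (dim L + 1)) • s := by rw [T.ts.D]; congr 1; ring
  have h1 := H.bil (τ := L.d) hs (by rw [T.ts.D2]; congr 1; ring) hs
  rw [T.Xs] at h1
  generalize (lam + 4 * dim L) / (dim L + 4) = c0 at *
  generalize dim L / (dim L + 4) = g at *
  simp only [map_sub, map_add, map_smul, LinearMap.sub_apply, LinearMap.add_apply,
    LinearMap.smul_apply, smul_eq_mul, T.ta.D, T.tb.D, T.tp.D, T.tk.D, T.tw.D] at h1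
  simp only [T.o_pk H, T.o_pw H, T.o_pa H, T.o_pb H, L.symm k p, T.o_kw H, T.o_ka H, T.o_kb H,
    L.symm w p, L.symm w k, L.symm w a, T.o_aw H, L.symm w b, T.bw H, L.symm a p, L.symm a k,
    T.o_ab H, L.symm b p, L.symm b k, L.symm b a] at h1
  linarith

/-- the leaf identity for `w`, `u` -/
theorem l_u : 3 * (L.d + 1) * (1 + dim L / (dim L + 4)) * L.ip a a =
    2 * L.d * ((1 + dim L / (dim L + 4)) * (L.ip a a + L.ip b b) +
      (lam + 4 * dim L) / (dim L + 4) * L.ip u u + L.ip c c) + 8 * L.d * L.ip u u := by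
  have h1 := H.leaf (f := w) (g := u) (by rw [T.tw.D2]; simp)
    (by rw [T.tu.D2]; congr 1; ring)
  rw [T.T_X2w, T.X2w, T.Xu, T.Xw] at h1
  generalize (lam + 4 * dim L) / (dim L + 4) = c0 at *
  generalize dim L / (dim L + 4) = g at *
  simp only [map_sub, map_add, map_smul, LinearMap.sub_apply, LinearMap.add_apply,
    LinearMap.smul_apply, smul_eq_mul] at h1
  simp only [T.o_pa H, T.o_pb H, T.o_pc H, T.o_ka H, T.o_kb H, T.o_kc H, T.o_wc H, L.symm w a,
    T.o_aw H, L.symm w b, T.bw H, T.o_ab H, T.o_ac H, T.o_bc H, L.symm b a, L.symm c a,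
    L.symm c b, T.o_su H] at h1
  linarith

/-- the leaf identity for `w`, `s` -/
theorem l_s : 3 * (L.d + 1) * (L.ip p p + (1 + dim L / (dim L + 4)) * (dim L / (dim L + 4)) *
      L.ip a a) =
    2 * L.d * (L.ip p p + L.ip k k + ((lam + 4 * dim L) / (dim L + 4)) ^ 2 * L.ip w w +
      (lam + 4 * dim L) / (dim L + 4) * (1 + 2 * (dim L / (dim L + 4))) * L.ip u u +
      (1 + dim L / (dim L + 4)) * (dim L / (dim L + 4)) * (L.ip a a + L.ip b b)) +
      8 * L.d * L.ip s s := by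
  have h1 := H.leaf (f := w) (g := s) (by rw [T.tw.D2]; simp)
    (by rw [T.ts.D2]; congr 1; ring)
  rw [T.T_X2w, T.X2w, T.Xs, T.Xw] at h1
  generalize (lam + 4 * dim L) / (dim L + 4) = c0 at *
  generalize dim L / (dim L + 4) = g at *
  simp only [map_sub, map_add, map_smul, LinearMap.sub_apply, LinearMap.add_apply,
    LinearMap.smul_apply, smul_eq_mul] at h1
  simp only [T.o_pa H, T.o_pb H, T.o_pw H, T.o_pk H, L.symm k p, T.o_ka H, T.o_kb H, T.o_kw H,
    L.symm w p, L.symm w k, L.symm w a, T.o_aw H, L.symm w b, T.bw H, T.o_ab H, L.symm a p,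
    L.symm a k, L.symm b p, L.symm b k, L.symm b a, L.symm c p, L.symm c k, T.o_pc H, T.o_kc H,
    L.symm c w, T.o_wc H, L.symm c a, T.o_ac H, L.symm c b, T.o_bc H, L.symm u s,
    T.o_su H] at h1
  linarith

end Orth

end Tree2

end Vale.Agent.P207.H992
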