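import Vale.Agent.P207.H992.S0c

/-!
# P207, S0: lower bounds of the eigenvalue; the trivial part
-/

noncomputable section

namespace Vale.Agent.P207.H992

open Vale.Agent.P207.H662 Vale.Agent.P207.Low
open Vale.Agent.P207.H722.S0 (eta aa b0 b1 pk y2 kk)

variable {W : Type*} [AddCommGroup W] [Module ℝ W] {L : Lad W} {lam : ℝ}

/-- `λ ≥ - 2 n` on functions of type `(2,0)` -/
theorem lam_ge_neg (H : S0H L lam) {w : W} (tw : Typ L 2 0 w) (hw : w ≠ 0) :
    -(2 * dim L) ≤ lam := by
  have hpos : 0 < L.ip w w := lt_of_le_of_ne (L.nonneg w) fun h => hw (H.defi w h.symm)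
  have h1 := L.L1.pos 0 w
  have h2 := L.L2.pos 0 w
  simp only [map_zero, LinearMap.zero_apply, mul_zero, sub_zero, zero_add] at h1 h2
  have h3 := congrArg (fun t => L.ip t w) (L.Lam_apply w)
  simp only [H.eig, Lad1.C_apply, map_sub, map_add, map_neg, map_smul, LinearMap.sub_apply,
    LinearMap.add_apply, LinearMap.neg_apply, LinearMap.smul_apply, smul_eq_mul] at h3
  have h4 : L.ip (L.X (L.X w)) w = - L.ip (L.X w) (L.X w) := L.skew _ _
  have h5 := L.nonneg (L.X w)
  have h6 : L.L2.Δ w = 0 := by rw [tw.D2]; simp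
  have h7 : L.L1.Δ w = (2 * dim L) • w := by
    have h8 := tw.D
    rw [Lad.D_apply, h6, add_zero] at h8
    rw [h8]; congr 1; ring
  rw [h4, h6, h7] at h3
  simp only [map_smul, map_zero, LinearMap.smul_apply, LinearMap.zero_apply, smul_eq_mul] at h3
  by_contra hc
  push Not at hc
  have h9 : (lam + 2 * dim L) * L.ip w w < 0 := mul_neg_of_neg_of_pos (by linarith) hpos
  linarith

/-- **the first eigenvalue of type `(2,0)` on the Cayley plane** -/
theorem lam_ge_C (H : S0H L lam) (hd : L.d = 7) (he : L.e = 8) {w s u a b c p k : W}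
    (T : Tree2 L lam w s u a b c p k) (hw : w ≠ 0) : 56 ≤ lam := by
  have hn : dim L = 16 := by unfold dim; rw [hd, he]; norm_num
  have hpos : 0 < L.ip w w := lt_of_le_of_ne (L.nonneg w) fun h => hw (H.defi w h.symm)
  have h0 := lam_ge_neg H T.tw hw
  by_contra hc
  push Not at hc
  have hbb := T.bb H
  have hb0 := L.nonneg b
  rw [hbb, hn, hd] at hb0
  have hu0 := L.nonneg u
  have hβ : L.ip u u = 0 := by
    unfold eta at hb0
    have h1 : (lam - 96) * L.ip u u ≥ 0 := by
      have h2 : ((lam - 2 * (7 - 1) * (16 - 7 - 1)) * L.ip u u + (16 - 2 * 7 - 2) * L.ip c c) /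
        ((7 + 1) * (16 + 2)) = (lam - 96) * L.ip u u / 144 := by ring
      rw [h2] at hb0
      linarith
    nlinarith
  have hu : u = 0 := H.defi u hβ
  have hXu := T.Xu
  rw [hu, map_zero] at hXu
  have hζ : L.ip c c = 0 := by
    have h1 := congrArg (fun t => L.ip t c) hXu
    simp only [map_sub, map_add, map_zero, LinearMap.sub_apply, LinearMap.add_apply,
      LinearMap.zero_apply] at h1
    rw [T.o_ac H, T.o_bc H] at h1
    linarith
  obtain ⟨hS, hP, hK⟩ := T.gram_s H
  rw [hβ, hn] at hS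
  rw [hβ, hζ, hn, hd] at hK
  have hS0 := L.nonneg s
  have hK0 := L.nonneg k
  rw [hS] at hS0
  rw [hK] at hK0
  have e1 : H722.S0.ss 16 lam (L.ip w w) 0 = (lam + 64) / 20 * L.ip w w := by
    unfold H722.S0.ss; ring
  have e2 : kk 16 7 lam (L.ip w w) 0 0 =
      (lam + 64) * (lam - 56) * L.ip w w * (3 / 8800) := by
    unfold kk pk y2 aa eta H722.S0.ss; ring
  rw [e1] at hS0
  rw [e2] at hK0
  rw [hn] at h0
  have h1 : 0 < lam + 64 := by linarith
  have h2 : (lam + 64) * (lam - 56) * L.ip w w < 0 :=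
    mul_neg_of_neg_of_pos (mul_neg_of_pos_of_neg h1 (by linarith)) hpos
  linarith

/-- the constant part -/
theorem PP_zero_fields {f : W} (tf : Typ L 0 0 f) :
    PP L f 0 0 0 0 = (dim L - 1) * L.ip f f := by
  have h1 : L.L2.Δ f = 0 := by rw [tf.D2]; simp
  have h2 : L.L1.Δ f = 0 := by
    have h := tf.D
    rw [Lad.D_apply, h1, add_zero] at h
    rw [h]; simp
  unfold PP P1 P2 Lad1.qf Lad1.inn Lad1.nsq dim
  simp only [h1, h2, map_zero, LinearMap.zero_apply, smul_zero, sub_zero]
  ring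

end Vale.Agent.P207.H992
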