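import Vale.Agent.P207.H992.S0d
import Vale.Agent.P207.H722.S0High

/-!
# P207, S0: the value of the quadratic form on the fields `x X w`, `y w`, `z X w`
-/

noncomputable section

namespace Vale.Agent.P207.H992

open Vale.Agent.P207.H662 Vale.Agent.P207.Low

variable {W : Type*} [AddCommGroup W] [Module ℝ W] {L : Lad W} {lam : ℝ}

/-- linear combinations of the vertices of even degree -/
def V7 (f w p k a b c : W) (t1 t2 t3 t4 t5 t6 t7 : ℝ) : W :=
  t1 • f + t2 • w + t3 • p + t4 • k + t5 • a + t6 • b + t7 • c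

section

variable {f w s u a b c p k : W}

theorem V7_add (t1 t2 t3 t4 t5 t6 t7 r1 r2 r3 r4 r5 r6 r7 : ℝ) :
    V7 f w p k a b c t1 t2 t3 t4 t5 t6 t7 + V7 f w p k a b c r1 r2 r3 r4 r5 r6 r7 =
      V7 f w p k a b c (t1 + r1) (t2 + r2) (t3 + r3) (t4 + r4) (t5 + r5) (t6 + r6) (t7 + r7) := by
  unfold V7
  module

theorem ip_V7 (T0 : Typ L 0 0 f) (T : Tree2 L lam w s u a b c p k) (H : S0H L lam)
    (t1 t2 t3 t4 t5 t6 t7 r1 r2 r3 r4 r5 r6 r7 : ℝ) :
    L.ip (V7 f w p k a b c t1 t2 t3 t4 t5 t6 t7) (V7 f w p k a b c r1 r2 r3 r4 r5 r6 r7) =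
      t1 * r1 * L.ip f f + t2 * r2 * L.ip w w + t3 * r3 * L.ip p p + t4 * r4 * L.ip k k +
      t5 * r5 * L.ip a a + t6 * r6 * L.ip b b + t7 * r7 * L.ip c c +
      (t2 * r6 + t6 * r2) * L.ip u u + (t1 * r7 + t7 * r1) * L.ip f c := by
  obtain ⟨v, a', b', T0'⟩ := H.exists_tree0 T0
  have hfw := o_fw T0' T H
  have hfp := o_fp T0' T H
  have hfk := o_fk T0' T H
  have hfa := o_fa T0' T H
  have hfb := o_fb T0' T H
  have hwf := L.symm w f
  have hpf := L.symm p f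
  have hkf := L.symm k f
  have haf := L.symm a f
  have hbf := L.symm b f
  have hcf := L.symm c f
  rw [hfw] at hwf
  rw [hfp] at hpf
  rw [hfk] at hkf
  rw [hfa] at haf
  rw [hfb] at hbf
  unfold V7
  simp only [map_add, map_smul, LinearMap.add_apply, LinearMap.smul_apply, smul_eq_mul]
  simp only [hfw, hfp, hfk, hfa, hfb, hwf, hpf, hkf, haf, hbf, hcf, T.o_pa H, T.o_pb H, T.o_pw H,
    T.o_pk H, T.o_pc H, L.symm k p, T.o_ka H, T.o_kb H, T.o_kw H, T.o_kc H,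
    L.symm w p, L.symm w k, L.symm w a, T.o_aw H, L.symm w b, T.bw H, T.o_ab H, T.o_ac H,
    L.symm a p, T.o_wc H, T.o_bc H,
    L.symm a k, L.symm b p, L.symm b k, L.symm b a, L.symm c p, L.symm c k,
    L.symm c w, L.symm c a, L.symm c b]
  ring

theorem D2_V7 (T0 : Typ L 0 0 f) (T : Tree2 L lam w s u a b c p k)
    (t1 t2 t3 t4 t5 t6 t7 : ℝ) :
    L.L2.Δ (V7 f w p k a b c t1 t2 t3 t4 t5 t6 t7) =
      V7 f w p k a b c 0 0 (2 * (L.d + 1) * t3) 0 (2 * (L.d + 1) * t5) 0 0 := by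
  unfold V7
  simp only [map_add, map_smul, T0.D2, T.tw.D2, T.tp.D2, T.tk.D2, T.ta.D2, T.tb.D2, T.tc.D2]
  module

theorem D_V7 (T0 : Typ L 0 0 f) (T : Tree2 L lam w s u a b c p k)
    (t1 t2 t3 t4 t5 t6 t7 : ℝ) :
    L.D (V7 f w p k a b c t1 t2 t3 t4 t5 t6 t7) =
      V7 f w p k a b c 0 (2 * dim L * t2) (4 * (dim L + 2) * t3) (4 * (dim L + 2) * t4)
        (2 * dim L * t5) (2 * dim L * t6) 0 := by
  unfold V7
  simp only [map_add, map_smul, T0.D, T.tw.D, T.tp.D, T.tk.D, T.ta.D, T.tb.D, T.tc.D]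
  module

theorem D1_V7 (T0 : Typ L 0 0 f) (T : Tree2 L lam w s u a b c p k)
    (t1 t2 t3 t4 t5 t6 t7 : ℝ) :
    L.L1.Δ (V7 f w p k a b c t1 t2 t3 t4 t5 t6 t7) =
      V7 f w p k a b c 0 (2 * dim L * t2) ((4 * (dim L + 2) - 2 * (L.d + 1)) * t3)
        (4 * (dim L + 2) * t4) ((2 * dim L - 2 * (L.d + 1)) * t5) (2 * dim L * t6) 0 := by
  have h1 := D_V7 T0 T t1 t2 t3 t4 t5 t6 t7
  rw [Lad.D_apply, D2_V7 T0 T] at h1
  have h2 := eq_sub_of_add_eq h1
  rw [h2]
  unfold V7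
  module

theorem XXw_V7 (T : Tree2 L lam w s u a b c p k) : L.X (L.X w) =
    V7 f w p k a b c 0 (-((lam + 4 * dim L) / (dim L + 4))) 1 1 (-(1 + dim L / (dim L + 4)))
      (-(1 + dim L / (dim L + 4))) 1 := by
  rw [T.X2w]
  unfold V7
  module

theorem Xs_V7 (T : Tree2 L lam w s u a b c p k) : L.X s =
    V7 f w p k a b c 0 (-((lam + 4 * dim L) / (dim L + 4))) 1 1 (-(dim L / (dim L + 4)))
      (-(dim L / (dim L + 4))) 0 := by
  rw [T.Xs]
  unfold V7
  module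

theorem Xu_V7 (T : Tree2 L lam w s u a b c p k) : L.X u =
    V7 f w p k a b c 0 0 0 0 1 1 (-1) := by
  rw [T.Xu]
  unfold V7
  module

/-- `C_1 w` -/
theorem C1w_V7 (T : Tree2 L lam w s u a b c p k) (H : S0H L lam) : L.L1.C w =
    V7 f w p k a b c 0 (lam - (L.d + 1) * ((lam + 4 * dim L) / (dim L + 4))) 0 (L.d + 1) 0
      (-((L.d + 1) * (1 + dim L / (dim L + 4)))) (L.d + 1) := by
  have h1 := L.Lam_apply w
  have hTw : L.L2.Δ w = 0 := by rw [T.tw.D2]; simp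
  rw [H.eig, Lad.C2_eq, hTw, H.TX hTw, map_smul, T.T_X2w, T.X2w] at h1
  simp only [map_zero, smul_zero] at h1
  have h2 : L.L1.C w = lam • w + (p + k - ((lam + 4 * dim L) / (dim L + 4)) • w -
      (1 + dim L / (dim L + 4)) • (a + b) + c) - ((1 / 2 : ℝ) • (0 - (2 : ℝ) • L.d •
      (p + k - ((lam + 4 * dim L) / (dim L + 4)) • w - (1 + dim L / (dim L + 4)) • (a + b) + c) +
      ((2 * (L.d + 1)) • p - ((1 + dim L / (dim L + 4)) * (2 * (L.d + 1))) • a)) - 0) := by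
    rw [h1]; abel
  rw [h2]
  unfold V7
  module

theorem D1_s (T : Tree2 L lam w s u a b c p k) : L.L1.Δ s = (3 * (dim L + 1) - L.d) • s := by
  have h := T.ts.D
  rw [Lad.D_apply, T.ts.D2] at h
  rw [eq_sub_of_add_eq h]
  module

theorem D1_u (T : Tree2 L lam w s u a b c p k) : L.L1.Δ u = (dim L - 1 - L.d) • u := by
  have h := T.tu.D
  rw [Lad.D_apply, T.tu.D2] at h
  rw [eq_sub_of_add_eq h]
  module

/-- the master formula without the terms of `f` -/
theorem qf_r {κ q : ℝ} (L1 : Lad1 W L.ip L.X κ q) (f F G : W) :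
    L1.qf f F G - L.ip (L1.Δ f) f + q * L.ip f f =
      - L.ip (L1.Δ (f + L.X F)) (f + L.X F) + q * L.ip (f + L.X F) (f + L.X F)
      + L.ip (f + L.X F) (L.X (L1.Δ (L.X G)) - L1.Δ (L.X (L.X G)) - q • L.X (L.X G))
      - (L.ip (L1.Δ (L.X G)) (L.X G) * κ - L.ip (L1.C G) (L.X (L.X G)))
      - κ * q * L.ip (L.X G) (L.X G) - 2 * L.ip (f + L.X F) (L1.C G) := by
  rw [L1.master L.symm L.skew]
  have h1 : L.X (L1.Δ (L.X G)) - L1.Δ (L.X (L.X G)) - q • L.X (L.X G) = (2 : ℝ) • L1.E (L.X G) := by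
    rw [L1.Δ_X (L.X G)]; module
  rw [h1]
  have h2 : L.ip (L1.S (L.X G)) (L.X G) = - L.ip (L1.C G) (L.X (L.X G)) +
      κ * L.ip (L1.Δ (L.X G)) (L.X G) := by
    have h3 : L1.S (L.X G) = L1.C (L.X G) + κ • L1.Δ (L.X G) := by rw [Lad1.C_apply]; abel
    rw [h3, ← L1.X_C, map_add, LinearMap.add_apply, L.skew, map_smul, LinearMap.smul_apply,
      smul_eq_mul]
  unfold Lad1.nsq
  rw [h2, map_smul, smul_eq_mul]
  ring

/-- **the value of the quadratic form** -/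
theorem PP_w (H : S0H L lam) (T0 : Typ L 0 0 f) (T : Tree2 L lam w s u a b c p k) (x y z : ℝ) :
    PP L (f + w) (x • L.X w) (y • w) (z • L.X w) 0 =
      H722.S0.High1 (dim L) L.d lam x y (L.ip f f) (L.ip w w) (L.ip u u) (L.ip c c) (L.ip f c) +
      H722.S0.High2 (dim L) L.d lam z (L.ip f f) (L.ip w w) (L.ip u u) (L.ip c c) (L.ip f c) := by
  have he : L.e = dim L - 1 - L.d := by unfold dim; ring
  obtain ⟨hS, hP, hK⟩ := T.gram_s H
  have hB := T.bb H
  have hA := T.aa' H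
  have hP' : L.ip p p = H722.S0.pk (dim L) L.d lam (L.ip w w) (L.ip u u) (L.ip c c) -
      H722.S0.kk (dim L) L.d lam (L.ip w w) (L.ip u u) (L.ip c c) := by
    rw [← hP, ← hK]; ring
  have hr : ∀ t : ℝ, f + w + L.X (t • L.X w) =
      V7 f w p k a b c 1 (1 - t * ((lam + 4 * dim L) / (dim L + 4))) t t
        (-t * (1 + dim L / (dim L + 4))) (-t * (1 + dim L / (dim L + 4))) t := by
    intro t
    rw [map_smul, XXw_V7 T]
    unfold V7
    module
  have hXX : L.X (L.X (y • w)) = V7 f w p k a b c 0 (-y * ((lam + 4 * dim L) / (dim L + 4))) y y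
      (-y * (1 + dim L / (dim L + 4))) (-y * (1 + dim L / (dim L + 4))) y := by
    rw [map_smul, map_smul, XXw_V7 T]
    unfold V7
    module
  have hC : L.L1.C (y • w) =
    V7 f w p k a b c 0 (y * (lam - (L.d + 1) * ((lam + 4 * dim L) / (dim L + 4)))) 0
      (y * (L.d + 1)) 0 (-y * ((L.d + 1) * (1 + dim L / (dim L + 4)))) (y * (L.d + 1)) := by
    rw [map_smul, C1w_V7 T H]
    unfold V7
    module
  have hDX : L.L1.Δ (L.X (y • w)) = (y * (3 * (dim L + 1) - L.d)) • s -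
      (y * (dim L - 1 - L.d)) • u := by
    rw [map_smul, T.Xw, map_smul, map_sub, D1_s T, D1_u T]
    module
  have hXDX : L.X (L.L1.Δ (L.X (y • w))) = V7 f w p k a b c 0
      (-y * (3 * (dim L + 1) - L.d) * ((lam + 4 * dim L) / (dim L + 4)))
      (y * (3 * (dim L + 1) - L.d)) (y * (3 * (dim L + 1) - L.d))
      (-y * (3 * (dim L + 1) - L.d) * (dim L / (dim L + 4)) - y * (dim L - 1 - L.d))
      (-y * (3 * (dim L + 1) - L.d) * (dim L / (dim L + 4)) - y * (dim L - 1 - L.d))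
      (y * (dim L - 1 - L.d)) := by
    rw [hDX, map_sub, map_smul, map_smul, Xs_V7 T, Xu_V7 T]
    unfold V7
    module
  have hXw : L.X (y • w) = y • s - y • u := by rw [map_smul, T.Xw, smul_sub]
  have hXX1 : L.ip (L.X (y • w)) (L.X (y • w)) = y ^ 2 * (L.ip s s + L.ip u u) := by
    rw [hXw]
    simp only [map_sub, map_smul, LinearMap.sub_apply, LinearMap.smul_apply, smul_eq_mul,
      T.o_su H, L.symm u s]
    ring
  have hXX2 : L.ip (L.L1.Δ (L.X (y • w))) (L.X (y • w)) =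
      y ^ 2 * ((3 * (dim L + 1) - L.d) * L.ip s s + (dim L - 1 - L.d) * L.ip u u) := by
    rw [hDX, hXw]
    simp only [map_sub, map_smul, LinearMap.sub_apply, LinearMap.smul_apply, smul_eq_mul,
      T.o_su H, L.symm u s]
    ring
  have e1 : P1 L (f + w) (x • L.X w) (y • w) = H722.S0.High1 (dim L) L.d lam x y (L.ip f f)
      (L.ip w w) (L.ip u u) (L.ip c c) (L.ip f c) := by
    unfold P1
    rw [qf_r, hXX2, hXX1, hXDX, hXX, hC, hr]
    have hneg : ∀ r1 r2 r3 r4 r5 r6 r7 : ℝ, ∀ t1 t2 t3 t4 t5 t6 t7 : ℝ,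
        V7 f w p k a b c r1 r2 r3 r4 r5 r6 r7 - V7 f w p k a b c t1 t2 t3 t4 t5 t6 t7 =
          V7 f w p k a b c (r1 - t1) (r2 - t2) (r3 - t3) (r4 - t4) (r5 - t5) (r6 - t6)
            (r7 - t7) := by
      intros; unfold V7; module
    have hsm : ∀ e r1 r2 r3 r4 r5 r6 r7 : ℝ,
        e • V7 f w p k a b c r1 r2 r3 r4 r5 r6 r7 =
          V7 f w p k a b c (e * r1) (e * r2) (e * r3) (e * r4) (e * r5) (e * r6) (e * r7) := by
      intros; unfold V7; module
    simp only [D1_V7 T0 T, hneg, hsm, ip_V7 T0 T H]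
    rw [hP', hK, hB, hA, hS, he]
    simp only [H722.S0.High1, H722.S0.xx2, H722.S0.q0, H722.S0.q1, H722.S0.q2, H722.S0.q3,
      H722.S0.dx, H722.S0.y2]
    generalize H722.S0.pk (dim L) L.d lam (L.ip w w) (L.ip u u) (L.ip c c) = PK
    generalize H722.S0.kk (dim L) L.d lam (L.ip w w) (L.ip u u) (L.ip c c) = KK
    generalize H722.S0.eta (dim L) L.d lam (L.ip u u) (L.ip c c) = BB
    generalize H722.S0.aa (dim L) L.d lam (L.ip u u) (L.ip c c) = AA
    unfold H722.S0.ss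
    generalize (lam + 4 * dim L) / (dim L + 4) = c0
    generalize dim L / (dim L + 4) = g
    ring
  have e2 : P2 L (f + w) (z • L.X w) 0 = H722.S0.High2 (dim L) L.d lam z (L.ip f f)
      (L.ip w w) (L.ip u u) (L.ip c c) (L.ip f c) := by
    unfold P2
    rw [qf_r, hr]
    simp only [map_zero, smul_zero, sub_zero, mul_zero, zero_mul, add_zero,
      D2_V7 T0 T, ip_V7 T0 T H]
    rw [hP', hK, hB, hA]
    simp only [H722.S0.High2, H722.S0.xx2, H722.S0.y2]
    generalize H722.S0.pk (dim L) L.d lam (L.ip w w) (L.ip u u) (L.ip c c) = PK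
    generalize H722.S0.kk (dim L) L.d lam (L.ip w w) (L.ip u u) (L.ip c c) = KK
    generalize H722.S0.eta (dim L) L.d lam (L.ip u u) (L.ip c c) = BB
    generalize H722.S0.aa (dim L) L.d lam (L.ip u u) (L.ip c c) = AA
    unfold H722.S0.ss
    generalize (lam + 4 * dim L) / (dim L + 4) = c0
    generalize dim L / (dim L + 4) = g
    ring
  unfold PP
  rw [e1, e2]

end

end Vale.Agent.P207.H992
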